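import Mathlib

open MeasureTheory Finset
open scoped ENNReal Nat

namespace Vale.Agent.P171

abbrev E := EuclideanSpace ℝ (Fin 3)

noncomputable def S2 {N : ℕ} (W : E → E → ℝ) (x : Fin N → E) : ℝ :=
  ∑ i, ∑ j, if i < j then W (x i) (x j) else 0

noncomputable def En (V : E → ℝ) (W : E → E → ℝ) {N : ℕ} (x : Fin N → E) : ℝ :=
  ∑ i, V (x i) + S2 W x

noncomputable def wt (V : E → ℝ) (W : E → E → ℝ) {N : ℕ} (x : Fin N → E) : ℝ≥0∞ :=
  ENNReal.ofReal (Real.exp (En V W x))

noncomputable def I (N : ℕ) (A : Set E) (V : E → ℝ) (W : E → E → ℝ) : ℝ≥0∞ :=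
  ∫⁻ x in Set.pi Set.univ (fun _ : Fin N => A), wt V W x

noncomputable def Xi (A : Set E) (V : E → ℝ) (W : E → E → ℝ) : ℝ≥0∞ :=
  ∑' N, ((N ! : ℕ) : ℝ≥0∞)⁻¹ * I N A V W

lemma S2_cons {N : ℕ} (W : E → E → ℝ) (a : E) (y : Fin N → E) :
    S2 W (Fin.cons a y : Fin (N + 1) → E) = ∑ j, W a (y j) + S2 W y := by
  unfold S2
  rw [Fin.sum_univ_succ]
  congr 1
  · rw [Fin.sum_univ_succ]; simp
  · refine Finset.sum_congr rfl fun i _ => ?_
    rw [Fin.sum_univ_succ]; simp

lemma En_cons {N : ℕ} (V : E → ℝ) (W : E → E → ℝ) (a : E) (y : Fin N → E) :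
    En V W (Fin.cons a y : Fin (N + 1) → E) = V a + En (fun z => V z + W a z) W y := by
  unfold En
  rw [S2_cons, Fin.sum_univ_succ, Finset.sum_add_distrib]
  simp only [Fin.cons_zero, Fin.cons_succ]
  ring

lemma measurable_En_param {α : Type} [MeasurableSpace α] {V : α → E → ℝ} {W : E → E → ℝ}
    (hV : Measurable (Function.uncurry V)) (hW : Measurable (Function.uncurry W)) (N : ℕ) :
    Measurable (fun p : α × (Fin N → E) => En (V p.1) W p.2) := by
  unfold En S2
  refine Measurable.add ?_ ?_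
  · refine Finset.measurable_sum _ fun i _ => ?_
    exact hV.comp (measurable_fst.prodMk ((measurable_pi_apply i).comp measurable_snd))
  · refine Finset.measurable_sum _ fun i _ => Finset.measurable_sum _ fun j _ => ?_
    by_cases h : i < j
    · simp only [h, if_true]
      have h1 : Measurable (fun p : α × (Fin N → E) => (p.2 i, p.2 j)) := by fun_prop
      exact hW.comp h1
    · simp only [h, if_false]; exact measurable_const

lemma measurable_wt_param {α : Type} [MeasurableSpace α] {V : α → E → ℝ} {W : E → E → ℝ}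
    (hV : Measurable (Function.uncurry V)) (hW : Measurable (Function.uncurry W)) (N : ℕ) :
    Measurable (fun p : α × (Fin N → E) => wt (V p.1) W p.2) :=
  ENNReal.measurable_ofReal.comp (Real.measurable_exp.comp (measurable_En_param hV hW N))

lemma measurable_wt {V : E → ℝ} {W : E → E → ℝ}
    (hV : Measurable V) (hW : Measurable (Function.uncurry W)) (N : ℕ) :
    Measurable (fun x : Fin N → E => wt V W x) := by
  have h := measurable_wt_param (α := Unit) (V := fun _ => V) (W := W)
    (hV.comp measurable_snd) hW N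
  exact h.comp (measurable_const.prodMk measurable_id : Measurable fun x : Fin N → E => (((), x)))

lemma measurable_I_param {α : Type} [MeasurableSpace α] {V : α → E → ℝ} {W : E → E → ℝ}
    (hV : Measurable (Function.uncurry V)) (hW : Measurable (Function.uncurry W)) (N : ℕ)
    (A : Set E) : Measurable (fun a => I N A (V a) W) :=
  (measurable_wt_param hV hW N).lintegral_prod_right'

lemma I_eq (N : ℕ) (A : Set E) (V : E → ℝ) (W : E → E → ℝ) :
    I N A V W = ∫⁻ x, wt V W x ∂(Measure.pi fun _ : Fin N => (volume : Measure E).restrict A) := by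
  unfold I
  rw [volume_pi, Measure.restrict_pi_pi]

lemma I_zero (A : Set E) (V : E → ℝ) (W : E → E → ℝ) : I 0 A V W = 1 := by
  rw [I_eq]
  simp [wt, En, S2]

lemma I_succ (N : ℕ) (A : Set E) {V : E → ℝ} {W : E → E → ℝ}
    (hV : Measurable V) (hW : Measurable (Function.uncurry W)) :
    I (N + 1) A V W = ∫⁻ a in A, ENNReal.ofReal (Real.exp (V a)) *
      I N A (fun z => V z + W a z) W := by
  rw [I_eq]
  have hmp := (measurePreserving_piFinSuccAbove
    (fun _ : Fin (N + 1) => (volume : Measure E).restrict A) 0).symm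
  rw [← hmp.lintegral_comp (measurable_wt hV hW _)]
  have hm : Measurable (fun p : E × (Fin N → E) =>
      wt V W ((MeasurableEquiv.piFinSuccAbove (fun _ : Fin (N + 1) => E) 0).symm p)) :=
    (measurable_wt hV hW _).comp (MeasurableEquiv.measurable _)
  rw [lintegral_prod _ hm.aemeasurable]
  refine lintegral_congr fun a => ?_
  rw [I_eq, ← lintegral_const_mul' _ _ ENNReal.ofReal_ne_top]
  refine lintegral_congr fun y => ?_
  have : (MeasurableEquiv.piFinSuccAbove (fun _ : Fin (N + 1) => E) 0).symm (a, y)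
      = (Fin.cons a y : Fin (N + 1) → E) := by
    simp [MeasurableEquiv.piFinSuccAbove, Fin.insertNthEquiv, Fin.insertNth_zero']
  rw [this]
  unfold wt
  rw [En_cons, Real.exp_add, ENNReal.ofReal_mul (Real.exp_pos _).le]

lemma I_congr (N : ℕ) {A : Set E} (hA : MeasurableSet A) {V V' : E → ℝ} {W W' : E → E → ℝ}
    (hV : ∀ a ∈ A, V a = V' a) (hW : ∀ a ∈ A, ∀ b ∈ A, W a b = W' a b) :
    I N A V W = I N A V' W' := by
  unfold I
  refine setLIntegral_congr_fun (MeasurableSet.univ_pi fun _ => hA) fun x hx => ?_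
  have hx' : ∀ i, x i ∈ A := fun i => hx i (Set.mem_univ _)
  simp only [wt, En, S2]
  congr 3
  · exact Finset.sum_congr rfl fun i _ => hV _ (hx' i)
  · refine Finset.sum_congr rfl fun i _ => Finset.sum_congr rfl fun j _ => ?_
    rw [hW _ (hx' i) _ (hx' j)]

lemma I_mono (N : ℕ) {A B : Set E} (h : A ⊆ B) (V : E → ℝ) (W : E → E → ℝ) :
    I N A V W ≤ I N B V W :=
  lintegral_mono_set (Set.pi_mono fun _ _ => h)

lemma Xi_mono {A B : Set E} (h : A ⊆ B) (V : E → ℝ) (W : E → E → ℝ) :
    Xi A V W ≤ Xi B V W :=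
  ENNReal.tsum_le_tsum fun N => by gcongr; exact I_mono N h V W

lemma Xi_congr {A : Set E} (hA : MeasurableSet A) {V V' : E → ℝ} {W W' : E → E → ℝ}
    (hV : ∀ a ∈ A, V a = V' a) (hW : ∀ a ∈ A, ∀ b ∈ A, W a b = W' a b) :
    Xi A V W = Xi A V' W' := by
  unfold Xi
  exact tsum_congr fun N => by rw [I_congr N hA hV hW]

lemma I_union {A B : Set E} (hA : MeasurableSet A) (hB : MeasurableSet B) (hd : Disjoint A B)
    {W : E → E → ℝ} (hW : Measurable (Function.uncurry W))
    (h1 : ∀ a ∈ A, ∀ b ∈ B, W a b = 0) (h2 : ∀ a ∈ A, ∀ b ∈ B, W b a = 0) (N : ℕ) :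
    ∀ V : E → ℝ, Measurable V → I N (A ∪ B) V W =
      ∑ p ∈ antidiagonal N, (N.choose p.1 : ℝ≥0∞) * (I p.1 A V W * I p.2 B V W) := by
  induction N with
  | zero => intro V _; simp [I_zero]
  | succ N ih =>
    intro V hV
    have hVa : ∀ a, Measurable (fun z => V z + W a z) := fun a =>
      hV.add (hW.comp (measurable_const.prodMk measurable_id))
    have hVp : Measurable (Function.uncurry (fun a z => V z + W a z)) :=
      (hV.comp measurable_snd).add hW
    have he : Measurable (fun a => ENNReal.ofReal (Real.exp (V a))) :=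
      ENNReal.measurable_ofReal.comp (Real.measurable_exp.comp hV)
    have hm : ∀ (n : ℕ) (C : Set E), Measurable (fun a => ENNReal.ofReal (Real.exp (V a)) *
        I n C (fun z => V z + W a z) W) := fun n C => he.mul (measurable_I_param hVp hW _ _)
    rw [I_succ N _ hV hW, lintegral_union hB hd,
      Finset.sum_antidiagonal_choose_succ_mul (fun i j => I i A V W * I j B V W), add_comm]
    congr 1
    · rw [setLIntegral_congr_fun hB (g := fun a => ∑ p ∈ antidiagonal N,
        ((N.choose p.1 : ℝ≥0∞) * I p.1 A V W) * (ENNReal.ofReal (Real.exp (V a)) *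
          I p.2 B (fun z => V z + W a z) W))]
      · rw [lintegral_finsetSum]
        · refine Finset.sum_congr rfl fun p _ => ?_
          rw [lintegral_const_mul _ (hm _ _), ← I_succ _ _ hV hW,
            mul_assoc]
        · intro p _
          exact (hm _ _).const_mul _
      · intro a ha
        simp only
        rw [ih _ (hVa a), Finset.mul_sum]
        refine Finset.sum_congr rfl fun p _ => ?_
        rw [I_congr p.1 hA (V := fun z => V z + W a z) (V' := V) (W' := W)
          (fun z hz => by rw [h2 z hz a ha, add_zero]) (fun _ _ _ _ => rfl)]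
        ring
    · rw [setLIntegral_congr_fun hA (g := fun a => ∑ p ∈ antidiagonal N,
        ((N.choose p.2 : ℝ≥0∞) * I p.2 B V W) * (ENNReal.ofReal (Real.exp (V a)) *
          I p.1 A (fun z => V z + W a z) W))]
      · rw [lintegral_finsetSum]
        · refine Finset.sum_congr rfl fun p _ => ?_
          rw [lintegral_const_mul _ (hm _ _), ← I_succ _ _ hV hW]
          ring
        · intro p _
          exact (hm _ _).const_mul _
      · intro a ha
        simp only
        rw [ih _ (hVa a), Finset.mul_sum]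
        refine Finset.sum_congr rfl fun p hp => ?_
        rw [I_congr p.2 hB (V := fun z => V z + W a z) (V' := V) (W' := W)
          (fun z hz => by rw [h1 a ha z hz, add_zero]) (fun _ _ _ _ => rfl)]
        have : N.choose p.1 = N.choose p.2 := by
          rw [← mem_antidiagonal.mp hp]; exact Nat.choose_symm_add
        rw [this]
        ring

lemma tsum_antidiag (f g : ℕ → ℝ≥0∞) :
    ∑' n, ∑ p ∈ antidiagonal n, f p.1 * g p.2 = (∑' n, f n) * ∑' n, g n := by
  have h1 : (∑' n, f n) * ∑' n, g n = ∑' p : ℕ × ℕ, f p.1 * g p.2 := by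
    rw [ENNReal.tsum_prod', ← ENNReal.tsum_mul_right]
    exact tsum_congr fun a => by simp only; rw [ENNReal.tsum_mul_left]
  rw [h1, ← (Finset.HasAntidiagonal.sigmaAntidiagonalEquivProd (A := ℕ)).tsum_eq,
    ENNReal.tsum_sigma']
  refine tsum_congr fun n => ?_
  rw [← Finset.tsum_subtype (antidiagonal n) (fun p => f p.1 * g p.2)]
  rfl

lemma Xi_union {A B : Set E} (hA : MeasurableSet A) (hB : MeasurableSet B) (hd : Disjoint A B)
    {W : E → E → ℝ} (hW : Measurable (Function.uncurry W))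
    (h1 : ∀ a ∈ A, ∀ b ∈ B, W a b = 0) (h2 : ∀ a ∈ A, ∀ b ∈ B, W b a = 0)
    {V : E → ℝ} (hV : Measurable V) : Xi (A ∪ B) V W = Xi A V W * Xi B V W := by
  unfold Xi
  rw [← tsum_antidiag]
  refine tsum_congr fun N => ?_
  rw [I_union hA hB hd hW h1 h2 N V hV, Finset.mul_sum]
  refine Finset.sum_congr rfl fun p hp => ?_
  have hN := mem_antidiagonal.mp hp
  have key : ((N ! : ℕ) : ℝ≥0∞)⁻¹ * (N.choose p.1 : ℝ≥0∞)
      = ((p.1 ! : ℕ) : ℝ≥0∞)⁻¹ * ((p.2 ! : ℕ) : ℝ≥0∞)⁻¹ := by
    have h : N.choose p.1 * (p.1 ! * p.2 !) = N ! := by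
      rw [← hN, ← mul_assoc]
      have := Nat.add_choose_mul_factorial_mul_factorial p.2 p.1
      rw [add_comm] at this
      rw [← this]; ring
    have hc : (N.choose p.1 : ℝ≥0∞) ≠ 0 := by
      have : N.choose p.1 ≠ 0 := (Nat.choose_pos (by omega)).ne'
      exact_mod_cast this
    have hf : ∀ m : ℕ, ((m ! : ℕ) : ℝ≥0∞) ≠ 0 := fun m => by exact_mod_cast (Nat.factorial_ne_zero m)
    rw [← h]
    push_cast
    rw [ENNReal.mul_inv (Or.inl hc) (Or.inl (ENNReal.natCast_ne_top _)),
      ENNReal.mul_inv (Or.inl (hf _)) (Or.inl (ENNReal.natCast_ne_top _)), mul_right_comm,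
      ENNReal.inv_mul_cancel hc (ENNReal.natCast_ne_top _), one_mul]
  rw [← mul_assoc, key]
  ring

lemma I_const (N : ℕ) (A : Set E) (c : ℝ) :
    I N A (fun _ => c) (fun _ _ => 0) = (ENNReal.ofReal (Real.exp c) * volume A) ^ N := by
  rw [I_eq]
  have : ∀ x : Fin N → E, wt (fun _ => c) (fun _ _ => 0) x = ENNReal.ofReal (Real.exp c) ^ N := by
    intro x
    simp only [wt, En, S2, ite_self, Finset.sum_const_zero, add_zero, Finset.sum_const,
      Finset.card_univ, Fintype.card_fin, nsmul_eq_mul]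
    rw [Real.exp_nat_mul, ENNReal.ofReal_pow (Real.exp_pos _).le]
  simp only [this, lintegral_const, Measure.pi_univ, Measure.restrict_apply_univ,
    Finset.prod_const, Finset.card_univ, Fintype.card_fin, mul_pow]

lemma Xi_const (A : Set E) (c v : ℝ) (hv : 0 ≤ v) (hA : volume A = ENNReal.ofReal v) :
    Xi A (fun _ => c) (fun _ _ => 0) = ENNReal.ofReal (Real.exp (Real.exp c * v)) := by
  unfold Xi
  have hx : 0 ≤ Real.exp c * v := by positivity
  have hs : HasSum (fun n : ℕ => (Real.exp c * v) ^ n / (n ! : ℝ)) (Real.exp (Real.exp c * v)) := by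
    rw [Real.exp_eq_exp_ℝ]
    exact NormedSpace.expSeries_div_hasSum_exp _
  rw [← hs.tsum_eq, ENNReal.ofReal_tsum_of_nonneg (fun n => by positivity) hs.summable]
  refine tsum_congr fun N => ?_
  rw [I_const, hA, ← ENNReal.ofReal_mul (Real.exp_pos _).le, ← ENNReal.ofReal_pow hx,
    div_eq_inv_mul, ENNReal.ofReal_mul (by positivity),
    ENNReal.ofReal_inv_of_pos (by positivity), ENNReal.ofReal_natCast]

lemma one_le_Xi (A : Set E) (V : E → ℝ) (W : E → E → ℝ) : 1 ≤ Xi A V W := by
  unfold Xi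
  refine le_trans ?_ (ENNReal.le_tsum 0)
  simp [I_zero]

lemma Xi_empty (V : E → ℝ) (W : E → E → ℝ) : Xi ∅ V W = 1 := by
  unfold Xi
  rw [tsum_eq_single 0]
  · simp [I_zero]
  · intro N hN
    obtain ⟨n, rfl⟩ := Nat.exists_eq_succ_of_ne_zero hN
    have : Set.pi Set.univ (fun _ : Fin (n + 1) => (∅ : Set E)) = ∅ := by
      rw [Set.univ_pi_eq_empty_iff]; exact ⟨0, rfl⟩
    simp [I, this]

lemma Xi_fibers {ι : Type} [DecidableEq ι] (g : E → ι) (hg : ∀ q, MeasurableSet (g ⁻¹' {q}))
    {W : E → E → ℝ} (hW : Measurable (Function.uncurry W)) (h0 : ∀ a b, g a ≠ g b → W a b = 0)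
    {V : E → ℝ} (hV : Measurable V) (S : Finset ι) :
    Xi (g ⁻¹' (S : Set ι)) V W = ∏ q ∈ S, Xi (g ⁻¹' {q}) V W := by
  induction S using Finset.induction_on with
  | empty => simp [Xi_empty]
  | insert q S hq ih =>
    have hS : MeasurableSet (g ⁻¹' (S : Set ι)) := by
      have : g ⁻¹' (S : Set ι) = ⋃ q ∈ S, g ⁻¹' {q} := by ext a; simp
      rw [this]
      exact Finset.measurableSet_biUnion _ fun q _ => hg q
    have hne : ∀ a ∈ g ⁻¹' {q}, ∀ b ∈ g ⁻¹' (S : Set ι), g a ≠ g b := by
      intro a ha b hb h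
      apply hq
      have ha' : g a = q := ha
      have hb' : g b ∈ S := hb
      rwa [← ha', h]
    rw [Finset.prod_insert hq, ← ih, Finset.coe_insert, Set.insert_eq, Set.preimage_union]
    refine Xi_union (hg q) hS ?_ hW (fun a ha b hb => h0 _ _ (hne a ha b hb))
      (fun a ha b hb => h0 _ _ (hne a ha b hb).symm) hV
    rw [Set.disjoint_left]
    intro a ha hb
    exact hne a ha a hb rfl

lemma Xi_le_sum {ι : Type} (T : Finset ι) {A : Set E} (hA : MeasurableSet A)
    (V : E → ℝ) (W : E → E → ℝ) (c : ι → ℝ) (hc : ∀ s, 0 ≤ c s)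
    (V' : ι → E → ℝ) (W' : ι → E → E → ℝ) (hV : ∀ s, Measurable (V' s))
    (hW : ∀ s, Measurable (Function.uncurry (W' s)))
    (h : ∀ (N : ℕ) (x : Fin N → E), (∀ i, x i ∈ A) →
      Real.exp (En V W x) ≤ ∑ s ∈ T, c s * Real.exp (En (V' s) (W' s) x)) :
    Xi A V W ≤ ∑ s ∈ T, ENNReal.ofReal (c s) * Xi A (V' s) (W' s) := by
  have hI : ∀ N, I N A V W ≤ ∑ s ∈ T, ENNReal.ofReal (c s) * I N A (V' s) (W' s) := by
    intro N
    unfold I
    have : ∑ s ∈ T, ENNReal.ofReal (c s) *
        ∫⁻ x in Set.pi Set.univ (fun _ : Fin N => A), wt (V' s) (W' s) x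
        = ∫⁻ x in Set.pi Set.univ (fun _ : Fin N => A),
          ∑ s ∈ T, ENNReal.ofReal (c s) * wt (V' s) (W' s) x := by
      rw [lintegral_finsetSum _ fun s _ => (measurable_wt (hV s) (hW s) N).const_mul _]
      exact Finset.sum_congr rfl fun s _ =>
        (lintegral_const_mul _ (measurable_wt (hV s) (hW s) N)).symm
    rw [this]
    refine setLIntegral_mono' (MeasurableSet.univ_pi fun _ => hA) fun x hx => ?_
    unfold wt
    refine (ENNReal.ofReal_le_ofReal (h N x fun i => hx i (Set.mem_univ _))).trans ?_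
    rw [ENNReal.ofReal_sum_of_nonneg fun s _ => mul_nonneg (hc s) (Real.exp_pos _).le]
    exact le_of_eq (Finset.sum_congr rfl fun s _ => ENNReal.ofReal_mul (hc s))
  unfold Xi
  calc _ ≤ ∑' N, ∑ s ∈ T, ENNReal.ofReal (c s) *
        (((N ! : ℕ) : ℝ≥0∞)⁻¹ * I N A (V' s) (W' s)) := by
        refine ENNReal.tsum_le_tsum fun N => ?_
        calc _ ≤ ((N ! : ℕ) : ℝ≥0∞)⁻¹ * ∑ s ∈ T, ENNReal.ofReal (c s) * I N A (V' s) (W' s) := by
              gcongr; exact hI N
          _ = _ := by rw [Finset.mul_sum]; exact Finset.sum_congr rfl fun s _ => by ring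
    _ = _ := by
        rw [Summable.tsum_finsetSum fun _ _ => ENNReal.summable]
        exact Finset.sum_congr rfl fun s _ => ENNReal.tsum_mul_left

lemma Xi_le {A : Set E} (hA : MeasurableSet A)
    (V : E → ℝ) (W : E → E → ℝ) (V' : E → ℝ) (W' : E → E → ℝ) (hV : Measurable V')
    (hW : Measurable (Function.uncurry W'))
    (h : ∀ (N : ℕ) (x : Fin N → E), (∀ i, x i ∈ A) → En V W x ≤ En V' W' x) :
    Xi A V W ≤ Xi A V' W' := by
  have := Xi_le_sum ({()} : Finset Unit) hA V W (fun _ => 1) (fun _ => zero_le_one)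
    (fun _ => V') (fun _ => W') (fun _ => hV) (fun _ => hW)
    (fun N x hx => by simpa using h N x hx)
  simpa using this

lemma Xi_translate (A : Set E) (hA : MeasurableSet A) (v : E) (c : ℝ) {W : E → E → ℝ}
    (hW : Measurable (Function.uncurry W)) (hv : ∀ a b, W (a + v) (b + v) = W a b) :
    Xi ((fun a => a + v) ⁻¹' A) (fun _ => c) W = Xi A (fun _ => c) W := by
  unfold Xi
  refine tsum_congr fun N => ?_
  congr 1
  rw [I_eq, I_eq]
  have h1 : MeasurePreserving (fun a : E => a + v)
      ((volume : Measure E).restrict ((fun a => a + v) ⁻¹' A)) (volume.restrict A) :=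
    (measurePreserving_add_right volume v).restrict_preimage hA
  have h2 := measurePreserving_pi (fun _ : Fin N => _) (fun _ : Fin N => _) (fun _ => h1)
  rw [← h2.lintegral_comp (measurable_wt measurable_const hW N)]
  refine lintegral_congr fun x => ?_
  simp only [wt, En, S2, hv]

end Vale.Agent.P171
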