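import Vale.Agent.P171.Basic

open MeasureTheory Finset
open scoped ENNReal Nat

namespace Vale.Agent.P171

open Classical in
noncomputable def ind (P : Prop) : ℝ := if P then 1 else 0

lemma ind_nonneg (P : Prop) : 0 ≤ ind P := by unfold ind; split_ifs <;> norm_num
lemma ind_le_one (P : Prop) : ind P ≤ 1 := by unfold ind; split_ifs <;> norm_num
lemma ind_pos {P : Prop} (h : P) : ind P = 1 := by simp [ind, h]
lemma ind_neg {P : Prop} (h : ¬ P) : ind P = 0 := by simp [ind, h]
lemma ind_mono {P Q : Prop} (h : P → Q) : ind P ≤ ind Q := by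
  by_cases hP : P
  · rw [ind_pos hP, ind_pos (h hP)]
  · rw [ind_neg hP]; exact ind_nonneg _

lemma S2_mono {N : ℕ} {W W' : E → E → ℝ} {x : Fin N → E}
    (h : ∀ i j, W (x i) (x j) ≤ W' (x i) (x j)) : S2 W x ≤ S2 W' x := by
  unfold S2
  refine Finset.sum_le_sum fun i _ => Finset.sum_le_sum fun j _ => ?_
  split_ifs
  · exact h i j
  · exact le_rfl

lemma S2_add {N : ℕ} (W W' : E → E → ℝ) (x : Fin N → E) :
    S2 (fun a b => W a b + W' a b) x = S2 W x + S2 W' x := by
  unfold S2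
  rw [← Finset.sum_add_distrib]
  refine Finset.sum_congr rfl fun i _ => ?_
  rw [← Finset.sum_add_distrib]
  refine Finset.sum_congr rfl fun j _ => ?_
  split_ifs <;> simp

lemma S2_mul {N : ℕ} (c : ℝ) (W : E → E → ℝ) (x : Fin N → E) :
    S2 (fun a b => c * W a b) x = c * S2 W x := by
  unfold S2
  rw [Finset.mul_sum]
  refine Finset.sum_congr rfl fun i _ => ?_
  rw [Finset.mul_sum]
  refine Finset.sum_congr rfl fun j _ => ?_
  split_ifs <;> simp

lemma S2_zero {N : ℕ} (x : Fin N → E) : S2 (fun _ _ => 0) x = 0 := by simp [S2]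

lemma S2_nonneg {N : ℕ} {W : E → E → ℝ} {x : Fin N → E}
    (h : ∀ a b, 0 ≤ W a b) : 0 ≤ S2 W x := by
  rw [← S2_zero x]; exact S2_mono fun _ _ => h _ _

lemma S2_hasSum {N : ℕ} {F : ℕ → E → E → ℝ} {G : E → E → ℝ} (x : Fin N → E)
    (h : ∀ a b, HasSum (fun n => F n a b) (G a b)) : HasSum (fun n => S2 (F n) x) (S2 G x) := by
  unfold S2
  refine hasSum_sum fun i _ => hasSum_sum fun j _ => ?_
  split_ifs
  · exact h _ _
  · exact hasSum_zero

lemma S2_sum {N : ℕ} {ι : Type} (T : Finset ι) (F : ι → E → E → ℝ) (x : Fin N → E) :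
    S2 (fun a b => ∑ s ∈ T, F s a b) x = ∑ s ∈ T, S2 (F s) x := by
  classical
  induction T using Finset.induction_on with
  | empty => simp [S2]
  | insert q S hq ih =>
    simp only [Finset.sum_insert hq]
    rw [S2_add, ih]

lemma double_eq {N : ℕ} (W : E → E → ℝ) (hW : ∀ a b, W a b = W b a) (x : Fin N → E) :
    ∑ i, ∑ j, W (x i) (x j) = ∑ i, W (x i) (x i) + 2 * S2 W x := by
  have h1 : ∀ i j : Fin N, W (x i) (x j) = (if i = j then W (x i) (x j) else 0) +
      ((if i < j then W (x i) (x j) else 0) + (if j < i then W (x j) (x i) else 0)) := by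
    intro i j
    rcases lt_trichotomy i j with h | h | h
    · simp [h, h.ne, not_lt.mpr h.le]
    · simp [h]
    · simp [h, h.ne', not_lt.mpr h.le, hW (x i) (x j)]
  have h2 : ∑ i, ∑ j, (if j < i then W (x j) (x i) else 0) = S2 W x := by
    rw [Finset.sum_comm]; rfl
  rw [Finset.sum_congr rfl fun i _ => Finset.sum_congr rfl fun j _ => h1 i j]
  simp only [Finset.sum_add_distrib]
  rw [h2]
  simp only [Finset.sum_ite_eq, Finset.mem_univ, if_true]
  unfold S2
  ring

lemma fiber_sum {N : ℕ} (f : Fin N → Fin 3 → ℤ) (S : Finset (Fin 3 → ℤ)) (hS : ∀ i, f i ∈ S)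
    (g : (Fin 3 → ℤ) → ℝ) : ∑ j, g (f j) = ∑ c ∈ S, (∑ i, ind (f i = c)) * g c := by
  simp only [Finset.sum_mul]
  rw [Finset.sum_comm]
  refine Finset.sum_congr rfl fun i _ => ?_
  rw [Finset.sum_eq_single (f i)]
  · rw [ind_pos rfl, one_mul]
  · intro c _ hc; rw [ind_neg (Ne.symm hc), zero_mul]
  · intro h; exact absurd (hS i) h

lemma shift_le {N : ℕ} (f : Fin N → Fin 3 → ℤ) (v : Fin 3 → ℤ) :
    ∑ i, ∑ j, ind (f i = f j + v) ≤ ∑ i, ∑ j, ind (f i = f j) := by
  obtain ⟨n, hn⟩ : ∃ n : (Fin 3 → ℤ) → ℝ, n = fun c => ∑ i, ind (f i = c) := ⟨_, rfl⟩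
  have hX : ∀ S : Finset (Fin 3 → ℤ), (∀ i, f i ∈ S) →
      ∑ i, ∑ j, ind (f i = f j) = ∑ c ∈ S, n c * n c := by
    intro S hS
    rw [Finset.sum_comm]
    have := fiber_sum f S hS n
    simp only [hn] at this ⊢
    exact this
  obtain ⟨S, hS⟩ : ∃ S : Finset (Fin 3 → ℤ), S = Finset.univ.image f := ⟨_, rfl⟩
  have hS' : ∀ i, f i ∈ S := fun i => by simp [hS]
  have hA : ∑ i, ∑ j, ind (f i = f j + v) = ∑ c ∈ S, n c * n (c + v) := by
    rw [Finset.sum_comm]
    have := fiber_sum f S hS' (fun c => n (c + v))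
    simp only [hn] at this ⊢
    exact this
  have hB : ∑ c ∈ S, n (c + v) * n (c + v) ≤ ∑ i, ∑ j, ind (f i = f j) := by
    rw [hX (S.image (· + v) ∪ S) fun i => Finset.mem_union_right _ (hS' i)]
    rw [← Finset.sum_image (s := S) (g := (· + v)) (f := fun c => n c * n c)
      (fun a _ b _ h => add_right_cancel h)]
    exact Finset.sum_le_sum_of_subset_of_nonneg Finset.subset_union_left
      fun c _ _ => mul_self_nonneg _
  have hC := hX S hS'
  have hD : 2 * ∑ c ∈ S, n c * n (c + v) ≤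
      ∑ c ∈ S, n c * n c + ∑ c ∈ S, n (c + v) * n (c + v) := by
    rw [Finset.mul_sum, ← Finset.sum_add_distrib]
    exact Finset.sum_le_sum fun c _ => by nlinarith [sq_nonneg (n c - n (c + v))]
  linarith

lemma near_le {N : ℕ} (f : Fin N → Fin 3 → ℤ) (r : ℕ) :
    ∑ i, ∑ j, ind (∀ d, |f i d - f j d| ≤ r) ≤ (2 * r + 1 : ℝ) ^ 3 * ∑ i, ∑ j, ind (f i = f j) := by
  obtain ⟨T, hT⟩ : ∃ T : Finset (Fin 3 → ℤ),
      T = Fintype.piFinset (fun _ => Finset.Icc (-(r : ℤ)) r) := ⟨_, rfl⟩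
  have hc : (T.card : ℝ) = (2 * r + 1 : ℝ) ^ 3 := by
    rw [hT, Fintype.card_piFinset]
    simp only [Int.card_Icc, Finset.prod_const, Finset.card_univ, Fintype.card_fin]
    have : ((r : ℤ) + 1 - -(r : ℤ)).toNat = 2 * r + 1 := by omega
    rw [this]; push_cast; ring
  have h1 : ∀ i j, ind (∀ d, |f i d - f j d| ≤ r) ≤ ∑ v ∈ T, ind (f i = f j + v) := by
    intro i j
    by_cases h : ∀ d, |f i d - f j d| ≤ r
    · rw [ind_pos h]
      have hm : f i - f j ∈ T := by
        rw [hT, Fintype.mem_piFinset]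
        intro d
        have := abs_le.mp (h d)
        simp only [Finset.mem_Icc, Pi.sub_apply]
        exact this
      refine le_trans ?_ (Finset.single_le_sum (f := fun v => ind (f i = f j + v))
        (fun _ _ => ind_nonneg _) hm)
      rw [ind_pos (by simp)]
    · rw [ind_neg h]; exact Finset.sum_nonneg fun _ _ => ind_nonneg _
  calc _ ≤ ∑ i, ∑ j, ∑ v ∈ T, ind (f i = f j + v) :=
        Finset.sum_le_sum fun i _ => Finset.sum_le_sum fun j _ => h1 i j
    _ = ∑ v ∈ T, ∑ i, ∑ j, ind (f i = f j + v) := by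
        rw [Finset.sum_congr rfl fun i _ => Finset.sum_comm, Finset.sum_comm]
    _ ≤ ∑ v ∈ T, ∑ i, ∑ j, ind (f i = f j) := Finset.sum_le_sum fun v _ => shift_le f v
    _ = _ := by rw [Finset.sum_const, nsmul_eq_mul, hc]

lemma S2_near_le {N : ℕ} (f : E → Fin 3 → ℤ) (r : ℕ) (W : E → E → ℝ) (x : Fin N → E)
    (h : ∀ i j, W (x i) (x j) ≤ ind (∀ d, |f (x i) d - f (x j) d| ≤ r)) :
    S2 W x ≤ (2 * r + 1 : ℝ) ^ 3 * (N + S2 (fun a b => ind (f a = f b)) x) := by
  have h1 := near_le (fun i => f (x i)) r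
  have h2 := double_eq (fun a b => ind (∀ d, |f a d - f b d| ≤ r))
    (fun a b => by simp only [abs_sub_comm]) x
  have h3 := double_eq (fun a b => ind (f a = f b)) (fun a b => by simp only [eq_comm]) x
  simp only [ind_pos trivial, Finset.sum_const, Finset.card_univ, Fintype.card_fin,
    nsmul_eq_mul, mul_one] at h3
  have h4 : S2 W x ≤ S2 (fun a b => ind (∀ d, |f a d - f b d| ≤ r)) x := S2_mono h
  have h5 : 0 ≤ ∑ i, ind (∀ d, |f (x i) d - f (x i) d| ≤ r) :=
    Finset.sum_nonneg fun _ _ => ind_nonneg _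
  rw [h2, h3] at h1
  have h6 : (0 : ℝ) ≤ (2 * r + 1 : ℝ) ^ 3 * N := by positivity
  nlinarith

lemma S2_one_le {N : ℕ} (x : Fin N → E) : S2 (fun _ _ => 1) x ≤ (N : ℝ) ^ 2 / 2 := by
  have h := double_eq (fun _ _ => (1 : ℝ)) (fun _ _ => rfl) x
  simp only [Finset.sum_const, Finset.card_univ, Fintype.card_fin, nsmul_eq_mul, mul_one] at h
  have : (0 : ℝ) ≤ N := by positivity
  nlinarith

lemma shift_count_aux (a b : ℤ) (k j : ℕ) (hab : a ≤ b) (h : b - a ≤ j) :
    ((range k).filter fun s : ℕ => (a + s) / k ≠ (b + s) / k).card ≤ j := by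
  have hc : (Finset.Ioc a b).card ≤ j := by rw [Int.card_Ioc]; omega
  refine le_trans (Finset.card_le_card_of_injOn (fun s : ℕ => k * ((b + s) / k) - s) ?_ ?_) hc
  · intro s hs
    simp only [Finset.coe_filter, Finset.mem_range, Set.mem_ofPred_eq] at hs
    have hk : (0 : ℤ) < k := by omega
    have h1 : (a + s) / k ≤ (b + s) / k := Int.ediv_le_ediv hk (by omega)
    have h2 : (a + s) / k + 1 ≤ (b + s) / k := by omega
    have h3 := Int.mul_ediv_add_emod (a + s) k
    have h4 := Int.mul_ediv_add_emod (b + s) k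
    have h5 := Int.emod_lt_of_pos (a + s) hk
    have h6 := Int.emod_nonneg (b + s) hk.ne'
    have h7 : (k : ℤ) * ((a + s) / k + 1) ≤ k * ((b + s) / k) := by gcongr
    simp only [Finset.coe_Ioc, Set.mem_Ioc]
    constructor <;> nlinarith
  · intro s hs s' hs' he
    simp only [Finset.coe_filter, Finset.mem_range, Set.mem_ofPred_eq] at hs hs'
    simp only at he
    have hk : (0 : ℤ) < k := by omega
    obtain ⟨q, hq⟩ : ∃ q, q = (b + s) / k - (b + s') / k := ⟨_, rfl⟩
    have h1 : (k : ℤ) * q = s - s' := by rw [hq]; linarith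
    have hs1 : (s : ℤ) < k := by omega
    have hs2 : (s' : ℤ) < k := by omega
    have hs3 : (0 : ℤ) ≤ s := by omega
    have hs4 : (0 : ℤ) ≤ s' := by omega
    have h2 : q = 0 := by
      rcases lt_trichotomy q 0 with h | h | h
      · nlinarith
      · exact h
      · nlinarith
    rw [h2] at h1
    omega

lemma shift_count (a b : ℤ) (k j : ℕ) (h : |a - b| ≤ j) :
    ∑ s ∈ range k, ind ((a + (s : ℕ)) / k ≠ (b + (s : ℕ)) / k) ≤ j := by
  have h' := abs_le.mp h
  have key : ∀ a b : ℤ, a ≤ b → b - a ≤ j →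
      ∑ s ∈ range k, ind ((a + (s : ℕ)) / k ≠ (b + (s : ℕ)) / k) ≤ j := by
    intro a b hab h
    have := shift_count_aux a b k j hab h
    have h2 : ∑ s ∈ range k, ind ((a + (s : ℕ)) / k ≠ (b + (s : ℕ)) / k)
        = (((range k).filter fun s : ℕ => (a + s) / k ≠ (b + s) / k).card : ℝ) := by
      rw [Finset.card_filter]
      push_cast
      refine Finset.sum_congr rfl fun s _ => ?_
      unfold ind
      split_ifs <;> simp_all
    rw [h2]; exact_mod_cast this
  rcases le_total a b with hab | hab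
  · exact key a b hab (by omega)
  · have := key b a hab (by omega)
    simpa only [ne_comm] using this

noncomputable def cell (x : E) : Fin 3 → ℤ := fun d => ⌊x d⌋

noncomputable def box (k s : ℕ) (x : E) : Fin 3 → ℤ := fun d => (⌊x d⌋ + s) / k

lemma cell_near {x y : E} {j : ℕ} (h : dist x y ≤ j) (d : Fin 3) : |cell x d - cell y d| ≤ j := by
  have h1 : dist (x d) (y d) ≤ j := (PiLp.dist_apply_le x y d).trans h
  rw [Real.dist_eq] at h1
  have h2 := abs_le.mp h1
  unfold cell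
  have h3 : ⌊x d⌋ ≤ ⌊y d + j⌋ := Int.floor_mono (by linarith)
  have h4 : ⌊y d⌋ ≤ ⌊x d + j⌋ := Int.floor_mono (by linarith)
  rw [Int.floor_add_natCast] at h3 h4
  rw [abs_le]; constructor <;> omega

lemma box_near {x y : E} {k : ℕ} (hk : 0 < k) (s : ℕ) (h : dist x y ≤ k) (d : Fin 3) :
    |box k s x d - box k s y d| ≤ (1 : ℕ) := by
  have h1 := abs_le.mp (cell_near h d)
  unfold cell at h1
  unfold box
  have hk' : (0 : ℤ) < k := by omega
  have h3 : (⌊x d⌋ + s) / k ≤ (⌊y d⌋ + s + 1 * k) / k := Int.ediv_le_ediv hk' (by omega)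
  have h4 : (⌊y d⌋ + s) / k ≤ (⌊x d⌋ + s + 1 * k) / k := Int.ediv_le_ediv hk' (by omega)
  rw [Int.add_mul_ediv_right _ _ hk'.ne'] at h3 h4
  rw [abs_le]; constructor <;> omega

lemma box_count {x y : E} (k : ℕ) {j : ℕ} (h : dist x y ≤ j) :
    ∑ s ∈ range k, ind (box k s x ≠ box k s y) ≤ 3 * j := by
  calc _ ≤ ∑ s ∈ range k, ∑ d : Fin 3, ind ((cell x d + (s : ℕ)) / k ≠ (cell y d + (s : ℕ)) / k) := by
        refine Finset.sum_le_sum fun s _ => ?_
        by_cases hb : box k s x ≠ box k s y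
        · rw [ind_pos hb]
          obtain ⟨d, hd⟩ := Function.ne_iff.mp hb
          refine le_trans ?_ (Finset.single_le_sum
            (f := fun d => ind ((cell x d + (s : ℕ)) / k ≠ (cell y d + (s : ℕ)) / k))
            (fun _ _ => ind_nonneg _) (Finset.mem_univ d))
          exact (ind_pos hd).ge
        · rw [ind_neg hb]; exact Finset.sum_nonneg fun _ _ => ind_nonneg _
    _ = ∑ d : Fin 3, ∑ s ∈ range k, ind ((cell x d + (s : ℕ)) / k ≠ (cell y d + (s : ℕ)) / k) :=
        Finset.sum_comm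
    _ ≤ ∑ d : Fin 3, (j : ℝ) := Finset.sum_le_sum fun d _ => shift_count _ _ k j (cell_near h d)
    _ = _ := by simp

lemma dist_lt_two {x y : E} (h : cell x = cell y) : dist x y < 2 := by
  rw [EuclideanSpace.dist_eq, Real.sqrt_lt' (by norm_num)]
  have h1 : ∀ d, (x d - y d) ^ 2 ≤ 1 := by
    intro d
    have h2 : ⌊x d⌋ = ⌊y d⌋ := congrFun h d
    have h3 := Int.abs_sub_lt_one_of_floor_eq_floor h2
    have := abs_lt.mp h3
    nlinarith
  calc ∑ d, dist (x d) (y d) ^ 2 ≤ ∑ _d : Fin 3, (1 : ℝ) :=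
        Finset.sum_le_sum fun d _ => by rw [Real.dist_eq, sq_abs]; exact h1 d
    _ < 2 ^ 2 := by simp; norm_num

lemma measurable_cell : Measurable cell := by
  refine measurable_pi_lambda _ fun d => ?_
  have : Measurable (fun x : E => x d) := by fun_prop
  exact Int.measurable_floor.comp this

lemma measurable_box (k s : ℕ) : Measurable (box k s) := by
  have : box k s = (fun c : Fin 3 → ℤ => fun d => (c d + s) / k) ∘ cell := rfl
  rw [this]
  exact (measurable_of_countable _).comp measurable_cell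

lemma measurable_ind_eq {f : E → Fin 3 → ℤ} (hf : Measurable f) :
    Measurable (Function.uncurry fun a b => ind (f a = f b)) := by
  have : (Function.uncurry fun a b => ind (f a = f b)) =
      (fun p : (Fin 3 → ℤ) × (Fin 3 → ℤ) => ind (p.1 = p.2)) ∘ (fun p : E × E => (f p.1, f p.2)) := rfl
  rw [this]
  exact (measurable_of_countable _).comp ((hf.comp measurable_fst).prodMk (hf.comp measurable_snd))

def cube (a : Fin 3 → ℝ) (L : ℝ) : Set E := {x | ∀ d, x d ∈ Set.Icc (a d) (a d + L)}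

lemma measurableSet_cube (a : Fin 3 → ℝ) (L : ℝ) : MeasurableSet (cube a L) := by
  have : cube a L = ⋂ d, (fun x : E => x d) ⁻¹' Set.Icc (a d) (a d + L) := by
    ext x; simp [cube]
  rw [this]
  refine MeasurableSet.iInter fun d => ?_
  have : Measurable (fun x : E => x d) := by fun_prop
  exact this measurableSet_Icc

lemma volume_cube (a : Fin 3 → ℝ) {L : ℝ} (hL : 0 ≤ L) :
    volume (cube a L) = ENNReal.ofReal (L ^ 3) := by
  rw [← (PiLp.volume_preserving_toLp (Fin 3)).measure_preimage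
    (measurableSet_cube a L).nullMeasurableSet]
  have : (WithLp.toLp 2) ⁻¹' (cube a L) = Set.Icc a (fun d => a d + L) := by
    ext x; simp [cube, Pi.le_def, forall_and]
  rw [this, Real.volume_Icc_pi]
  simp [ENNReal.ofReal_pow hL]

end Vale.Agent.P171
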