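import Vale.Agent.P171.Zorn

open MeasureTheory Finset Filter Topology
open scoped ENNReal Nat

namespace Vale.Agent.P171

/-- Euclidean three-space. -/
abbrev R3 := EuclideanSpace ℝ (Fin 3)

/-- Pair energy `U_N` of a configuration of `N` points. -/
noncomputable def U (v : ℝ → ℝ) {N : ℕ} (x : Fin N → R3) : ℝ :=
  ∑ i, ∑ j, if i < j then v ‖x i - x j‖ else 0

def Stable (v : ℝ → ℝ) : Prop :=
  ∃ B : ℝ, ∀ (N : ℕ) (x : Fin N → R3), Function.Injective x → -(B * N) ≤ U v x

def Tempered (v : ℝ → ℝ) : Prop :=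
  ∃ C ε R₀ : ℝ, 0 < C ∧ 0 < ε ∧ 0 < R₀ ∧ ∀ r, R₀ ≤ r → v r ≤ C * r ^ (-3 - ε)

/-- The cube `[0,L]^3`. -/
def Box (L : ℝ) : Set R3 := {x | ∀ d, x d ∈ Set.Icc 0 L}

/-- Configurations of `N` points in the cube. -/
def Conf (L : ℝ) (N : ℕ) : Set (Fin N → R3) := {x | ∀ i, x i ∈ Box L}

/-- Canonical partition function. -/
noncomputable def Z (v : ℝ → ℝ) (β L : ℝ) (N : ℕ) : ℝ :=
  (1 / (Nat.factorial N : ℝ)) * ∫ x in Conf L N, Real.exp (-β * U v x)

/-- Grand canonical partition function. -/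
noncomputable def Grand (v : ℝ → ℝ) (β z L : ℝ) : ℝ := ∑' N : ℕ, z ^ N * Z v β L N

lemma Box_eq (L : ℝ) : Box L = Lam L := by
  ext x; simp [Box, Lam, cube]

lemma Conf_eq (L : ℝ) (N : ℕ) : Conf L N = Set.pi Set.univ fun _ : Fin N => Lam L := by
  ext x; simp [Conf, Box_eq]

lemma U_eq (t : ℕ → ℝ) {N : ℕ} (x : Fin N → E) : U (phi t) x = - S2 (Wt t) x := by
  have : S2 (Wt t) x = S2 (fun a b => (-1) * phi t ‖a - b‖) x := by
    congr 1; ext a b; simp [Wt, dist_eq_norm]
  rw [this, S2_mul]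
  simp only [neg_mul, one_mul, neg_neg]
  rfl

lemma measurable_boltz {t : ℕ → ℝ} (h : Adm t) (N : ℕ) :
    Measurable (fun x : Fin N → E => Real.exp (-1 * U (phi t) x)) := by
  have h1 := measurable_En_param (α := Unit) (V := fun _ _ => 0) (W := Wt t) measurable_const
    h.measurable_Wt N
  have h2 := h1.comp
    (measurable_const.prodMk measurable_id : Measurable fun x : Fin N → E => (((), x)))
  have h3 : (fun x : Fin N → E => -1 * U (phi t) x) = fun x => En (fun _ => 0) (Wt t) x := by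
    ext x; rw [U_eq, En_const]; ring
  refine Real.measurable_exp.comp ?_
  rw [h3]; exact h2

lemma I_eq_boltz (t : ℕ → ℝ) {z : ℝ} (hz : 0 < z) (L : ℝ) (N : ℕ) :
    I N (Lam L) (fun _ => Real.log z) (Wt t) = ENNReal.ofReal (z ^ N) *
      ∫⁻ x in Conf L N, ENNReal.ofReal (Real.exp (-1 * U (phi t) x)) := by
  rw [← lintegral_const_mul' _ _ ENNReal.ofReal_ne_top, Conf_eq]
  refine lintegral_congr fun x => ?_
  unfold wt
  rw [En_const, U_eq, Real.exp_add, mul_comm (Real.log z), Real.exp_nat_mul, Real.exp_log hz,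
    ENNReal.ofReal_mul (by positivity)]
  simp

lemma term_eq {t : ℕ → ℝ} (h : Adm t) {z : ℝ} (hz : 0 < z) (L : ℝ) (N : ℕ) :
    z ^ N * Z (phi t) 1 L N =
      (((N ! : ℕ) : ℝ≥0∞)⁻¹ * I N (Lam L) (fun _ => Real.log z) (Wt t)).toReal := by
  rw [I_eq_boltz t hz, Z, integral_eq_lintegral_of_nonneg_ae
    (Eventually.of_forall fun _ => (Real.exp_pos _).le) (measurable_boltz h N).aestronglyMeasurable,
    ENNReal.toReal_mul, ENNReal.toReal_mul, ENNReal.toReal_ofReal (by positivity),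
    ENNReal.toReal_inv, ENNReal.toReal_natCast]
  ring

lemma integrable_boltz {t : ℕ → ℝ} (h : Good t) {L : ℝ} (hL : 0 ≤ L) (N : ℕ) :
    IntegrableOn (fun x : Fin N → E => Real.exp (-1 * U (phi t) x)) (Conf L N) := by
  refine ⟨(measurable_boltz h.adm N).aestronglyMeasurable, ?_⟩
  rw [hasFiniteIntegral_iff_ofReal (Eventually.of_forall fun _ => (Real.exp_pos _).le)]
  have h1 := ENNReal.ne_top_of_tsum_ne_top (Xi_ne_top h (Real.log 1) hL) N
  rw [I_eq_boltz t one_pos] at h1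
  rw [lt_top_iff_ne_top]
  intro h2
  apply h1
  rw [h2]
  simp [ENNReal.mul_top]

lemma integrable_phi {t : ℕ → ℝ} (h : Adm t) : Integrable (fun x : E => phi t ‖x‖) := by
  have hc : ∀ R : ℝ, 0 ≤ R → ∫⁻ x : E, ENNReal.ofReal (ind (‖x‖ ≤ R)) ≤
      ENNReal.ofReal ((2 * R) ^ 3) := by
    intro R hR
    rw [← volume_cube (fun _ => -R) (by positivity), ← lintegral_indicator_one
      (measurableSet_cube _ _)]
    refine lintegral_mono fun x => ?_
    by_cases hx : ‖x‖ ≤ R
    · have : x ∈ cube (fun _ => -R) (2 * R) := fun d => by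
        have h1 := abs_le.mp ((PiLp.norm_apply_le x d).trans hx)
        constructor <;> linarith [h1.1, h1.2]
      simp [ind_pos hx, this]
    · simp [ind_neg hx]
  have hm : ∀ R : ℝ, Measurable (fun x : E => ind (‖x‖ ≤ R)) := fun R =>
    (Antitone.measurable (f := fun r : ℝ => ind (r ≤ R))
      fun r r' hr => ind_mono fun h' => hr.trans h').comp measurable_norm
  refine Integrable.sub (Integrable.const_mul ?_ _) ?_
  · refine ⟨((Antitone.measurable (f := fun r : ℝ => ind (r < 2))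
      fun r r' hr => ind_mono fun h' => lt_of_le_of_lt hr h').comp
        measurable_norm).aestronglyMeasurable, ?_⟩
    rw [hasFiniteIntegral_iff_ofReal (Eventually.of_forall fun _ => ind_nonneg _)]
    refine lt_of_le_of_lt (le_trans (lintegral_mono fun x => ?_) (hc 2 (by norm_num)))
      ENNReal.ofReal_lt_top
    exact ENNReal.ofReal_le_ofReal (ind_mono le_of_lt)
  · refine ⟨(h.measurable_At.comp measurable_norm).aestronglyMeasurable, ?_⟩
    rw [hasFiniteIntegral_iff_ofReal (Eventually.of_forall fun _ => h.At_nonneg _)]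
    have h1 : ∀ x : E, ENNReal.ofReal (At t ‖x‖) = ∑' j, ENNReal.ofReal (t j / (Rs j : ℝ) ^ 3) *
        ENNReal.ofReal (ind (‖x‖ ≤ (Rs j : ℝ))) := by
      intro x
      unfold At
      rw [ENNReal.ofReal_tsum_of_nonneg (fun j => mul_nonneg (h.nonneg j) (Jk_nonneg _ _))
        (h.summJ _)]
      refine tsum_congr fun j => ?_
      rw [← ENNReal.ofReal_mul (div_nonneg (h.nonneg j) (by positivity))]
      congr 1
      unfold Jk; ring
    simp only [h1]
    rw [lintegral_tsum fun j => ((hm _).ennreal_ofReal.const_mul _).aemeasurable]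
    have h2 : ∀ j, ∫⁻ x : E, ENNReal.ofReal (t j / (Rs j : ℝ) ^ 3) *
        ENNReal.ofReal (ind (‖x‖ ≤ (Rs j : ℝ))) ≤ ENNReal.ofReal (8 * t j) := by
      intro j
      have hR : (0 : ℝ) < Rs j := by exact_mod_cast Rs_pos j
      rw [lintegral_const_mul' _ _ ENNReal.ofReal_ne_top]
      calc _ ≤ ENNReal.ofReal (t j / (Rs j : ℝ) ^ 3) * ENNReal.ofReal ((2 * (Rs j : ℝ)) ^ 3) := by
            gcongr; exact hc _ hR.le
        _ = _ := by
            rw [← ENNReal.ofReal_mul (div_nonneg (h.nonneg j) (by positivity))]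
            congr 1
            field_simp; ring
    refine lt_of_le_of_lt (ENNReal.tsum_le_tsum h2) ?_
    rw [← ENNReal.ofReal_tsum_of_nonneg (fun j => mul_nonneg (by norm_num) (h.nonneg j))
      (h.summ.mul_left 8)]
    exact ENNReal.ofReal_lt_top

theorem main : ∃ v : ℝ → ℝ, Measurable v ∧ (∃ M : ℝ, ∀ r, |v r| ≤ M) ∧
    Integrable (fun x : R3 => v ‖x‖) ∧ Stable v ∧ Tempered v ∧
    ∃ β : ℝ, 0 < β ∧
      (∀ L : ℝ, 0 ≤ L → ∀ N : ℕ,
        IntegrableOn (fun x : Fin N → R3 => Real.exp (-β * U v x)) (Conf L N)) ∧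
      (∀ z : ℝ, 0 < z → ∀ L : ℝ, 0 ≤ L → Summable fun N : ℕ => z ^ N * Z v β L N) ∧
      ∃ P : ℝ → ℝ,
        (∀ z : ℝ, 0 < z →
          Tendsto (fun L : ℝ => Real.log (Grand v β z L) / L ^ 3) atTop (𝓝 (P z))) ∧
        ∃ z₀ : ℝ, 0 < z₀ ∧ ¬ DifferentiableAt ℝ P z₀ := by
  obtain ⟨t, ht, hnd⟩ := exists_nondiff
  refine ⟨phi t, ht.adm.measurable_phi, ⟨AA + nrm t, fun r => ?_⟩, integrable_phi ht.adm,
    ⟨AA, fun N x _ => ?_⟩, ⟨1, 1, 2, one_pos, one_pos, two_pos, fun r hr => ?_⟩, 1, one_pos,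
    fun L hL N => integrable_boltz ht hL N, fun z hz L hL => ?_,
    fun z => pr t (Real.log z), fun z hz => ?_, ?_⟩
  · have h1 := ht.adm.At_nonneg r
    have h2 := ht.adm.At_le r
    have h3 := mul_nonneg AA_pos.le (ind_nonneg (r < 2))
    have h4 := mul_le_of_le_one_right AA_pos.le (ind_le_one (r < 2))
    have h5 := AA_pos
    unfold phi
    rw [abs_le]; constructor <;> linarith
  · rw [U_eq]
    have h1 := stab ht.adm ht.small x
    have h2 := YY_nonneg x
    have h3 : (27 * nrm t + 1) * N ≤ AA * N := by gcongr; exact ht.small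
    linarith
  · have h1 := ht.adm.At_nonneg r
    have h2 : 0 ≤ r ^ (-3 - 1 : ℝ) := Real.rpow_nonneg (by linarith) _
    simp only [phi, ind_neg (not_lt.mpr hr)]
    linarith
  · simp only [term_eq ht.adm hz]
    exact ENNReal.summable_toReal (Xi_ne_top ht _ hL)
  · refine (tendsto_pr ht (Real.log z)).congr' ?_
    filter_upwards [eventually_ge_atTop 0] with L hL
    simp only [Grand, term_eq ht.adm hz]
    rw [← ENNReal.tsum_toReal_eq (ENNReal.ne_top_of_tsum_ne_top (Xi_ne_top ht _ hL))]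
    rfl
  · by_contra hc
    push Not at hc
    apply hnd
    intro μ
    have h1 := (hc (Real.exp μ) (Real.exp_pos μ)).comp μ Real.differentiableAt_exp
    have h2 : ((fun z => pr t (Real.log z)) ∘ Real.exp) = pr t := by
      ext ν; simp
    rwa [h2] at h1

end Vale.Agent.P171
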