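import Vale.Agent.P171.Model

open MeasureTheory Finset
open scoped ENNReal Nat

namespace Vale.Agent.P171

lemma S2_mono' {N : ℕ} {W W' : E → E → ℝ} {x : Fin N → E}
    (h : ∀ i j, i < j → W (x i) (x j) ≤ W' (x i) (x j)) : S2 W x ≤ S2 W' x := by
  unfold S2
  refine Finset.sum_le_sum fun i _ => Finset.sum_le_sum fun j _ => ?_
  split_ifs with hij
  · exact h i j hij
  · exact le_rfl

def cb {M : ℕ} (m : Fin 3 → Fin M) : Set E := cube (fun d => 3 * ((m d : ℕ) : ℝ)) 1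

lemma cb_far {M : ℕ} {m m' : Fin 3 → Fin M} (h : m ≠ m') {x y : E} (hx : x ∈ cb m)
    (hy : y ∈ cb m') : 2 ≤ dist x y := by
  obtain ⟨d, hd⟩ := Function.ne_iff.mp h
  refine le_trans ?_ (PiLp.dist_apply_le x y d)
  have h1 := hx d
  have h2 := hy d
  simp only [Set.mem_Icc] at h1 h2
  rw [Real.dist_eq, le_abs]
  have hd' : (m d : ℕ) ≠ m' d := fun h => hd (Fin.ext h)
  rcases lt_or_gt_of_ne hd' with h3 | h3
  · have : ((m d : ℕ) : ℝ) + 1 ≤ (m' d : ℕ) := by exact_mod_cast h3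
    right; linarith
  · have : ((m' d : ℕ) : ℝ) + 1 ≤ (m d : ℕ) := by exact_mod_cast h3
    left; linarith

lemma cb_near {M : ℕ} {m m' : Fin 3 → Fin M} {w : ℕ}
    (h : ∀ d, (m d : ℕ) ≤ m' d ∧ (m' d : ℕ) < m d + w) {x y : E} (hx : x ∈ cb m)
    (hy : y ∈ cb m') : dist x y ≤ 8 * w := by
  rw [EuclideanSpace.dist_eq, Real.sqrt_le_left (by positivity)]
  have h1 : ∀ d, dist (x d) (y d) ^ 2 ≤ (3 * w) ^ 2 := by
    intro d
    have h1 := hx d
    have h2 := hy d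
    simp only [Set.mem_Icc] at h1 h2
    have h3 : ((m d : ℕ) : ℝ) ≤ (m' d : ℕ) := by exact_mod_cast (h d).1
    have h4 : ((m' d : ℕ) : ℝ) + 1 ≤ (m d : ℕ) + w := by exact_mod_cast (h d).2
    rw [Real.dist_eq, sq_abs]
    apply sq_le_sq' <;> linarith
  calc ∑ d, dist (x d) (y d) ^ 2 ≤ ∑ _d : Fin 3, (3 * w : ℝ) ^ 2 := Finset.sum_le_sum fun d _ => h1 d
    _ ≤ _ := by simp; nlinarith [sq_nonneg (w : ℝ)]

lemma cb_sub {M : ℕ} (m : Fin 3 → Fin M) : cb m ⊆ Lam (3 * M) := by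
  intro x hx d
  have h1 := hx d
  simp only [Set.mem_Icc, Pi.zero_apply, zero_add] at h1 ⊢
  have h2 : ((m d : ℕ) : ℝ) + 1 ≤ M := by exact_mod_cast (m d).2
  have h3 : (0 : ℝ) ≤ (m d : ℕ) := by positivity
  constructor <;> linarith

lemma count1 (M w : ℕ) (h : 10 * w ≤ M) :
    9 / 10 * M * w ≤ ∑ a : Fin M, ∑ b : Fin M, ind ((a : ℕ) ≤ b ∧ (b : ℕ) < a + w) := by
  rw [Fin.sum_univ_eq_sum_range (fun a => ∑ b : Fin M, ind (a ≤ b ∧ (b : ℕ) < a + w))]
  have h1 : ∀ a ∈ range (M - w), (w : ℝ) ≤ ∑ b : Fin M, ind (a ≤ b ∧ (b : ℕ) < a + w) := by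
    intro a ha
    have ha' := Finset.mem_range.mp ha
    rw [Fin.sum_univ_eq_sum_range (fun b => ind (a ≤ b ∧ b < a + w))]
    calc (w : ℝ) = ∑ b ∈ Finset.Ico a (a + w), ind (a ≤ b ∧ b < a + w) := by
          rw [Finset.sum_congr rfl fun b hb => ind_pos (Finset.mem_Ico.mp hb)]
          simp
      _ ≤ _ := Finset.sum_le_sum_of_subset_of_nonneg (fun b hb => by
          have := Finset.mem_Ico.mp hb
          exact Finset.mem_range.mpr (by omega)) fun _ _ _ => ind_nonneg _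
  have h2 : (10 : ℝ) * w ≤ M := by exact_mod_cast h
  calc 9 / 10 * (M : ℝ) * w ≤ (M - w) * w := by gcongr; linarith
    _ = ∑ a ∈ range (M - w), (w : ℝ) := by
        rw [Finset.sum_const, Finset.card_range, nsmul_eq_mul, Nat.cast_sub (by omega)]
    _ ≤ ∑ a ∈ range (M - w), ∑ b : Fin M, ind (a ≤ b ∧ (b : ℕ) < a + w) := Finset.sum_le_sum h1
    _ ≤ _ := Finset.sum_le_sum_of_subset_of_nonneg (Finset.range_mono (by omega))
        fun _ _ _ => Finset.sum_nonneg fun _ _ => ind_nonneg _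

lemma ind_forall (P : Fin 3 → Prop) : ind (∀ d, P d) = ∏ d, ind (P d) := by
  by_cases h : ∀ d, P d
  · rw [ind_pos h, Finset.prod_congr rfl fun d _ => ind_pos (h d)]; simp
  · rw [ind_neg h]
    push Not at h
    obtain ⟨d, hd⟩ := h
    exact (Finset.prod_eq_zero (Finset.mem_univ d) (ind_neg hd)).symm

lemma count3 (M w : ℕ) (h : 10 * w ≤ M) :
    (9 / 10 * M * w : ℝ) ^ 3 ≤ ∑ m : Fin 3 → Fin M, ∑ m' : Fin 3 → Fin M,
      ind (∀ d, (m d : ℕ) ≤ m' d ∧ (m' d : ℕ) < m d + w) := by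
  simp only [ind_forall]
  have h1 : ∀ m : Fin 3 → Fin M, ∑ m' : Fin 3 → Fin M,
      ∏ d, ind ((m d : ℕ) ≤ m' d ∧ (m' d : ℕ) < m d + w)
      = ∏ d, ∑ b : Fin M, ind ((m d : ℕ) ≤ b ∧ (b : ℕ) < m d + w) := by
    intro m
    rw [Finset.prod_univ_sum, Fintype.piFinset_univ]
  simp only [h1]
  have h2 := Finset.prod_univ_sum (fun _ : Fin 3 => (Finset.univ : Finset (Fin M)))
    (fun _ a => ∑ b : Fin M, ind ((a : ℕ) ≤ b ∧ (b : ℕ) < a + w))
  rw [Fintype.piFinset_univ] at h2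
  rw [← h2, Finset.prod_const, Finset.card_univ, Fintype.card_fin]
  gcongr
  exact count1 M w h

lemma S2_J_lower {M N : ℕ} (e : Fin N ≃ (Fin 3 → Fin M)) (x : Fin N → E) (hx : ∀ i, x i ∈ cb (e i))
    (j : ℕ) (h : 10 * (j + 2) ≤ M) :
    (M : ℝ) ^ 3 / 2000 ≤ S2 (fun a b => Jk (Rs j) (dist a b)) x := by
  obtain ⟨w, hw⟩ : ∃ w, w = j + 2 := ⟨_, rfl⟩
  rw [← hw] at h
  have hw2 : (2 : ℝ) ≤ w := by have : 2 ≤ w := by omega
                               exact_mod_cast this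
  have hR : ((Rs j : ℕ) : ℝ) = 8 * w := by rw [hw]; unfold Rs; push_cast; ring
  have hN : (N : ℝ) = (M : ℝ) ^ 3 := by
    have := Fintype.card_congr e
    simp only [Fintype.card_fin, Fintype.card_pi, Finset.prod_const, Finset.card_univ] at this
    rw [this]; push_cast; ring
  have h1 := count3 M w h
  have h2 : ∑ m : Fin 3 → Fin M, ∑ m' : Fin 3 → Fin M,
      ind (∀ d, (m d : ℕ) ≤ m' d ∧ (m' d : ℕ) < m d + w)
      ≤ ∑ i, ∑ i', ind (dist (x i) (x i') ≤ 8 * w) := by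
    rw [← e.sum_comp]
    refine Finset.sum_le_sum fun i _ => ?_
    rw [← e.sum_comp]
    exact Finset.sum_le_sum fun i' _ => ind_mono fun hh => cb_near hh (hx i) (hx i')
  have h3 := double_eq (fun a b => ind (dist a b ≤ 8 * w)) (fun a b => by rw [dist_comm]) x
  have h4 : ∑ i, ind (dist (x i) (x i) ≤ 8 * w) ≤ N := by
    calc _ ≤ ∑ _i : Fin N, (1 : ℝ) := Finset.sum_le_sum fun _ _ => ind_le_one _
      _ = N := by simp
  have h5 : S2 (fun a b => Jk (Rs j) (dist a b)) x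
      = ((8 * w : ℝ) ^ 3)⁻¹ * S2 (fun a b => ind (dist a b ≤ 8 * w)) x := by
    rw [← S2_mul]; simp only [Jk, div_eq_inv_mul, hR]
  rw [h5, ← div_eq_inv_mul, le_div_iff₀ (by positivity)]
  have h6 : (8 : ℝ) ≤ (w : ℝ) ^ 3 := by
    calc (8 : ℝ) = 2 ^ 3 := by norm_num
      _ ≤ _ := by gcongr
  have h7 : (0 : ℝ) ≤ (M : ℝ) ^ 3 := by positivity
  have h8 : (9 / 10 * M * w : ℝ) ^ 3 = 729 / 1000 * ((M : ℝ) ^ 3 * (w : ℝ) ^ 3) := by ring
  have h9 : (M : ℝ) ^ 3 / 2000 * (8 * w) ^ 3 = 256 / 1000 * ((M : ℝ) ^ 3 * (w : ℝ) ^ 3) := by ring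
  have h10 : (M : ℝ) ^ 3 * 8 ≤ (M : ℝ) ^ 3 * (w : ℝ) ^ 3 := by gcongr
  rw [h9]
  linarith

lemma Xi_lower {t : ℕ → ℝ} (h : Adm t) (μ : ℝ) (D M : ℕ) (hM : 10 * (D + 2) ≤ M) :
    ENNReal.ofReal (Real.exp ((μ + (∑ j ∈ range D, t j) / 2000) * (M : ℝ) ^ 3)) ≤
      Xi (Lam (3 * M)) (fun _ => μ) (Wt t) := by
  obtain ⟨N, hN⟩ : ∃ N, N = M ^ 3 := ⟨_, rfl⟩
  obtain ⟨b, hb⟩ : ∃ b, b = ENNReal.ofReal
    (Real.exp ((μ + (∑ j ∈ range D, t j) / 2000) * (M : ℝ) ^ 3)) := ⟨_, rfl⟩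
  obtain ⟨G, hG⟩ : ∃ G : (Fin N ≃ (Fin 3 → Fin M)) → Set (Fin N → E),
    G = fun e => Set.pi Set.univ fun i => cb (e i) := ⟨_, rfl⟩
  have hGm : ∀ e, MeasurableSet (G e) := fun e => by
    rw [hG]; exact MeasurableSet.univ_pi fun i => measurableSet_cube _ _
  have hGd : Pairwise (Function.onFun Disjoint G) := by
    intro e e' hne
    rw [Function.onFun, Set.disjoint_left]
    intro x hx hx'
    apply hne
    ext1 i
    by_contra hi
    rw [hG] at hx hx'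
    have := cb_far hi (hx i (Set.mem_univ _)) (hx' i (Set.mem_univ _))
    rw [dist_self] at this
    norm_num at this
  have hcard : Fintype.card (Fin 3 → Fin M) = N := by simp [hN]
  have hvol : volume (⋃ e, G e) = ((N ! : ℕ) : ℝ≥0∞) := by
    rw [measure_iUnion hGd hGm, tsum_fintype]
    have : ∀ e, volume (G e) = 1 := by
      intro e
      rw [hG]
      simp only
      rw [volume_pi_pi]
      simp [cb, volume_cube]
    simp only [this, Finset.sum_const, Finset.card_univ, nsmul_eq_mul, mul_one]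
    rw [Fintype.card_equiv (Fintype.equivFinOfCardEq hcard).symm, Fintype.card_fin]
  have hI : b * ((N ! : ℕ) : ℝ≥0∞) ≤ I N (Lam (3 * M)) (fun _ => μ) (Wt t) := by
    rw [← hvol, ← setLIntegral_const]
    unfold I
    refine le_trans (setLIntegral_mono' (MeasurableSet.iUnion hGm) fun x hx => ?_)
      (lintegral_mono_set ?_)
    · obtain ⟨e, he⟩ := Set.mem_iUnion.mp hx
      rw [hG] at he
      have he' : ∀ i, x i ∈ cb (e i) := fun i => he i (Set.mem_univ _)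
      rw [hb]
      unfold wt
      refine ENNReal.ofReal_le_ofReal (Real.exp_le_exp.mpr ?_)
      rw [En_const]
      have h1 : S2 (fun a b => ∑ j ∈ range D, t j * Jk (Rs j) (dist a b)) x ≤ S2 (Wt t) x := by
        refine S2_mono' fun i i' hi => ?_
        have h2 := cb_far (e.injective.ne hi.ne) (he' i) (he' i')
        simp only [Wt, phi, ind_neg (not_lt.mpr h2), mul_zero, zero_sub, neg_neg]
        exact (h.summJ _).sum_le_tsum _ fun j _ => mul_nonneg (h.nonneg j) (Jk_nonneg _ _)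
      rw [S2_sum] at h1
      have h3 : ∑ j ∈ range D, t j * ((M : ℝ) ^ 3 / 2000) ≤
          ∑ j ∈ range D, S2 (fun a b => t j * Jk (Rs j) (dist a b)) x := by
        refine Finset.sum_le_sum fun j hj => ?_
        have := Finset.mem_range.mp hj
        rw [S2_mul]
        exact mul_le_mul_of_nonneg_left (S2_J_lower e x he' j (by omega)) (h.nonneg j)
      rw [← Finset.sum_mul] at h3
      have hN' : (N : ℝ) = (M : ℝ) ^ 3 := by rw [hN]; push_cast; ring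
      rw [hN']
      linarith
    · refine Set.iUnion_subset fun e => ?_
      rw [hG]
      exact Set.pi_mono fun i _ => cb_sub _
  rw [← hb]
  unfold Xi
  refine le_trans ?_ (ENNReal.le_tsum N)
  have hf : ((N ! : ℕ) : ℝ≥0∞) ≠ 0 := by exact_mod_cast (Nat.factorial_ne_zero N)
  calc b = ((N ! : ℕ) : ℝ≥0∞)⁻¹ * (b * ((N ! : ℕ) : ℝ≥0∞)) := by
        rw [mul_comm b, ← mul_assoc, ENNReal.inv_mul_cancel hf (ENNReal.natCast_ne_top _), one_mul]
    _ ≤ _ := by gcongr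

end Vale.Agent.P171
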