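import Vale.Agent.P171.Comb

open MeasureTheory Finset
open scoped ENNReal Nat

namespace Vale.Agent.P171

def Rs (j : ℕ) : ℕ := 8 * (j + 2)

noncomputable def Jk (k : ℕ) (r : ℝ) : ℝ := ind (r ≤ k) / (k : ℝ) ^ 3

noncomputable def At (t : ℕ → ℝ) (r : ℝ) : ℝ := ∑' j, t j * Jk (Rs j) r

def AA : ℝ := 10 ^ 12

noncomputable def phi (t : ℕ → ℝ) (r : ℝ) : ℝ := AA * ind (r < 2) - At t r

noncomputable def Wt (t : ℕ → ℝ) : E → E → ℝ := fun a b => - phi t (dist a b)

structure Adm (t : ℕ → ℝ) : Prop where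
  nonneg : ∀ j, 0 ≤ t j
  summ : Summable t

noncomputable def nrm (t : ℕ → ℝ) : ℝ := ∑' j, t j

noncomputable def sc : E → E → ℝ := fun a b => ind (cell a = cell b)

def Lam (L : ℝ) : Set E := cube 0 L

noncomputable def Wp (t : ℕ → ℝ) (θ c : ℝ) : E → E → ℝ := fun a b => Wt t a b + θ * sc a b + c

noncomputable def CC (μ : ℝ) : ℝ := Real.exp (μ + AA)

noncomputable def YY {N : ℕ} (x : Fin N → E) : ℝ := N + S2 sc x

lemma AA_pos : 0 < AA := by unfold AA; positivity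

lemma Rs_pos (j : ℕ) : 0 < Rs j := by unfold Rs; omega

lemma Jk_nonneg (k : ℕ) (r : ℝ) : 0 ≤ Jk k r := div_nonneg (ind_nonneg _) (by positivity)

lemma Jk_le_one {k : ℕ} (hk : 0 < k) (r : ℝ) : Jk k r ≤ 1 := by
  unfold Jk
  have : (1 : ℝ) ≤ k := by exact_mod_cast hk
  rw [div_le_one (by positivity)]
  exact (ind_le_one _).trans (one_le_pow₀ this)

lemma Adm.summJ {t : ℕ → ℝ} (h : Adm t) (r : ℝ) : Summable (fun j => t j * Jk (Rs j) r) :=
  Summable.of_nonneg_of_le (fun j => mul_nonneg (h.nonneg j) (Jk_nonneg _ _))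
    (fun j => mul_le_of_le_one_right (h.nonneg j) (Jk_le_one (Rs_pos j) r)) h.summ

lemma Adm.nrm_nonneg {t : ℕ → ℝ} (h : Adm t) : 0 ≤ nrm t := tsum_nonneg h.nonneg

lemma Adm.At_nonneg {t : ℕ → ℝ} (h : Adm t) (r : ℝ) : 0 ≤ At t r :=
  tsum_nonneg fun j => mul_nonneg (h.nonneg j) (Jk_nonneg _ _)

lemma Adm.At_le {t : ℕ → ℝ} (h : Adm t) (r : ℝ) : At t r ≤ nrm t :=
  (h.summJ r).tsum_le_tsum
    (fun j => mul_le_of_le_one_right (h.nonneg j) (Jk_le_one (Rs_pos j) r)) h.summ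

lemma Adm.measurable_At {t : ℕ → ℝ} (h : Adm t) : Measurable (At t) := by
  refine Antitone.measurable fun r r' hr => ?_
  refine (h.summJ r').tsum_le_tsum (fun j => ?_) (h.summJ r)
  refine mul_le_mul_of_nonneg_left ?_ (h.nonneg j)
  unfold Jk
  gcongr
  exact ind_mono fun h' => hr.trans h'

lemma Adm.measurable_phi {t : ℕ → ℝ} (h : Adm t) : Measurable (phi t) := by
  refine Measurable.sub (Measurable.const_mul ?_ _) h.measurable_At
  exact Antitone.measurable fun r r' hr => ind_mono fun h' => lt_of_le_of_lt hr h'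

lemma Adm.measurable_Wt {t : ℕ → ℝ} (h : Adm t) : Measurable (Function.uncurry (Wt t)) :=
  (h.measurable_phi.comp measurable_dist).neg

lemma measurable_sc : Measurable (Function.uncurry sc) := measurable_ind_eq measurable_cell

lemma Adm.measurable_Wp {t : ℕ → ℝ} (h : Adm t) (θ c : ℝ) :
    Measurable (Function.uncurry (Wp t θ c)) :=
  (h.measurable_Wt.add (measurable_sc.const_mul θ)).add measurable_const

lemma En_const {N : ℕ} (c : ℝ) (W : E → E → ℝ) (x : Fin N → E) :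
    En (fun _ => c) W x = c * N + S2 W x := by
  simp [En, mul_comm]

lemma S2_sc_nonneg {N : ℕ} (x : Fin N → E) : 0 ≤ S2 sc x := S2_nonneg fun _ _ => ind_nonneg _

lemma YY_nonneg {N : ℕ} (x : Fin N → E) : 0 ≤ YY x := by
  have := S2_sc_nonneg x
  unfold YY; positivity

lemma S2_Wp {N : ℕ} (t : ℕ → ℝ) (θ c : ℝ) (x : Fin N → E) :
    S2 (Wp t θ c) x = S2 (Wt t) x + θ * S2 sc x + c * S2 (fun _ _ => 1) x := by
  rw [← S2_mul, ← S2_mul, ← S2_add, ← S2_add]
  simp only [mul_one]; rfl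

lemma S2_Jk {N : ℕ} {c : ℝ} (f : E → Fin 3 → ℤ) (r k : ℕ) (hk : 0 < k)
    (hr : (2 * r + 1 : ℝ) ^ 3 / (k : ℝ) ^ 3 ≤ 27 * c)
    (hf : ∀ a b, dist a b ≤ k → ∀ d, |f a d - f b d| ≤ r) (x : Fin N → E) :
    S2 (fun a b => Jk k (dist a b)) x ≤ 27 * c * (N + S2 (fun a b => ind (f a = f b)) x) := by
  have h1 := S2_near_le f r (fun a b => ind (dist a b ≤ k)) x
    (fun i j => ind_mono (hf _ _))
  have h2 : S2 (fun a b => Jk k (dist a b)) x
      = ((k : ℝ) ^ 3)⁻¹ * S2 (fun a b => ind (dist a b ≤ k)) x := by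
    rw [← S2_mul]; simp only [Jk, div_eq_inv_mul]
  have h3 : 0 ≤ N + S2 (fun a b => ind (f a = f b)) x := by
    have : 0 ≤ S2 (fun a b => ind (f a = f b)) x := S2_nonneg fun _ _ => ind_nonneg _
    positivity
  rw [h2]
  calc _ ≤ ((k : ℝ) ^ 3)⁻¹ * ((2 * r + 1 : ℝ) ^ 3 * (N + S2 (fun a b => ind (f a = f b)) x)) := by
        gcongr
    _ = (2 * r + 1 : ℝ) ^ 3 / (k : ℝ) ^ 3 * (N + S2 (fun a b => ind (f a = f b)) x) := by ring
    _ ≤ _ := by gcongr

lemma S2_Jk_cell {N : ℕ} (k : ℕ) (hk : 0 < k) (x : Fin N → E) :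
    S2 (fun a b => Jk k (dist a b)) x ≤ 27 * YY x := by
  have hk' : (1 : ℝ) ≤ k := by exact_mod_cast hk
  have := S2_Jk (c := 1) cell k k hk (by
    rw [div_le_iff₀ (by positivity)]
    calc (2 * k + 1 : ℝ) ^ 3 ≤ (3 * k) ^ 3 := by gcongr; linarith
      _ = _ := by ring) (fun a b h d => cell_near h d) x
  rw [mul_one] at this
  exact this

lemma S2_At {N : ℕ} {u : ℕ → ℝ} (h : Adm u) (x : Fin N → E) :
    S2 (fun a b => At u (dist a b)) x ≤ 27 * nrm u * YY x := by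
  have h1 := S2_hasSum (F := fun j a b => u j * Jk (Rs j) (dist a b))
    (G := fun a b => At u (dist a b)) x (fun a b => (h.summJ _).hasSum)
  have h2 : HasSum (fun j => u j * (27 * YY x)) (nrm u * (27 * YY x)) :=
    h.summ.hasSum.mul_right _
  have h3 := hasSum_le (fun j => by
    rw [S2_mul]
    exact mul_le_mul_of_nonneg_left (S2_Jk_cell _ (Rs_pos j) x) (h.nonneg j)) h1 h2
  linarith

lemma stab {N : ℕ} {t : ℕ → ℝ} (h : Adm t) (hA : 27 * nrm t + 1 ≤ AA) (x : Fin N → E) :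
    S2 (Wt t) x + YY x ≤ (27 * nrm t + 1) * N := by
  have h1 : S2 (Wt t) x ≤ S2 (fun a b => (-AA) * sc a b + At t (dist a b)) x := by
    refine S2_mono fun i j => ?_
    have : sc (x i) (x j) ≤ ind (dist (x i) (x j) < 2) := ind_mono dist_lt_two
    have := AA_pos
    simp only [Wt, phi]
    nlinarith
  rw [S2_add, S2_mul] at h1
  have h2 := S2_At h x
  have h3 := S2_sc_nonneg x
  unfold YY at *
  nlinarith

lemma measurableSet_Lam (L : ℝ) : MeasurableSet (Lam L) := measurableSet_cube _ _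

lemma apriori {t : ℕ → ℝ} (h : Adm t) (hA : 27 * nrm t + 1 ≤ AA) (μ : ℝ) {L : ℝ} (hL : 0 ≤ L) :
    Xi (Lam L) (fun _ => μ + 1) (Wp t 1 0) ≤
      ENNReal.ofReal (Real.exp (Real.exp (μ + (27 * nrm t + 1)) * L ^ 3)) := by
  rw [← Xi_const (Lam L) _ _ (by positivity) (volume_cube 0 hL)]
  refine Xi_le (measurableSet_Lam L) _ _ _ _ measurable_const measurable_const fun N x _ => ?_
  rw [En_const, En_const, S2_Wp, S2_zero]
  have := stab h hA x
  unfold YY at this
  linarith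

lemma Xi_le_two {A : Set E} (hA : MeasurableSet A) (V : E → ℝ) (W : E → E → ℝ)
    (c1 c2 μ1 μ2 : ℝ) (h1 : 0 ≤ c1) (h2 : 0 ≤ c2) (W1 W2 : E → E → ℝ)
    (hW1 : Measurable (Function.uncurry W1)) (hW2 : Measurable (Function.uncurry W2))
    (h : ∀ (N : ℕ) (x : Fin N → E), (∀ i, x i ∈ A) → Real.exp (En V W x) ≤
      c1 * Real.exp (En (fun _ => μ1) W1 x) + c2 * Real.exp (En (fun _ => μ2) W2 x))
    (b1 b2 : ℝ) (hb1 : Xi A (fun _ => μ1) W1 ≤ ENNReal.ofReal (Real.exp b1))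
    (hb2 : Xi A (fun _ => μ2) W2 ≤ ENNReal.ofReal (Real.exp b2)) :
    Xi A V W ≤ ENNReal.ofReal (c1 * Real.exp b1 + c2 * Real.exp b2) := by
  have := Xi_le_sum (Finset.univ : Finset Bool) hA V W (fun s => if s then c1 else c2)
    (fun s => by cases s <;> simpa) (fun s _ => if s then μ1 else μ2) (fun s => if s then W1 else W2)
    (fun s => measurable_const) (fun s => by cases s <;> simpa)
    (fun N x hx => by simpa using h N x hx)
  refine this.trans ?_
  simp only [Fintype.univ_bool, Finset.mem_singleton, Bool.true_eq_false, not_false_eq_true,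
    Finset.sum_insert, if_true, Finset.sum_singleton, Bool.false_eq_true, if_false]
  rw [ENNReal.ofReal_add (by positivity) (by positivity), ENNReal.ofReal_mul h1,
    ENNReal.ofReal_mul h2]
  gcongr

lemma holder {t : ℕ → ℝ} (h : Adm t) (hA : 27 * nrm t + 1 ≤ AA) (μ : ℝ) {L : ℝ} (hL : 0 ≤ L)
    {α θ : ℝ} (hα : 0 ≤ α) (h0 : 0 ≤ θ) (h1 : θ ≤ 1)
    (hX : Xi (Lam L) (fun _ => μ) (Wt t) ≤ ENNReal.ofReal (Real.exp α)) :
    Xi (Lam L) (fun _ => μ + θ) (Wp t θ 0) ≤ ENNReal.ofReal (Real.exp (α + θ * CC μ * L ^ 3)) := by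
  obtain ⟨β, hβ⟩ : ∃ β, β = CC μ * L ^ 3 := ⟨_, rfl⟩
  have hb : Xi (Lam L) (fun _ => μ + 1) (Wp t 1 0) ≤ ENNReal.ofReal (Real.exp β) := by
    refine (apriori h hA μ hL).trans (ENNReal.ofReal_le_ofReal ?_)
    rw [hβ]; unfold CC; gcongr
  obtain ⟨K, hK⟩ : ∃ K, K = Real.exp ((1 - θ) * α + θ * β) := ⟨_, rfl⟩
  have hK0 : 0 < K := by rw [hK]; positivity
  have h1' : 0 ≤ 1 - θ := by linarith
  refine (Xi_le_two (measurableSet_Lam L) _ _ (K * (1 - θ) * Real.exp (-α)) (K * θ * Real.exp (-β))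
    μ (μ + 1) (by positivity) (by positivity) _ _ h.measurable_Wt (h.measurable_Wp 1 0)
    (fun N x _ => ?_) α β hX hb).trans (ENNReal.ofReal_le_ofReal ?_)
  · obtain ⟨a, ha⟩ : ∃ a, a = En (fun _ => μ) (Wt t) x := ⟨_, rfl⟩
    obtain ⟨b, hb⟩ : ∃ b, b = En (fun _ => μ + 1) (Wp t 1 0) x := ⟨_, rfl⟩
    have he : En (fun _ => μ + θ) (Wp t θ 0) x
        = ((1 - θ) * α + θ * β) + ((1 - θ) * (a - α) + θ * (b - β)) := by
      rw [ha, hb]; simp only [En_const, S2_Wp]; ring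
    have hc := convexOn_exp.2 (Set.mem_univ (a - α)) (Set.mem_univ (b - β)) h1' h0 (by ring)
    simp only [smul_eq_mul] at hc
    rw [he, Real.exp_add, ← hK, ← ha, ← hb]
    calc _ ≤ K * ((1 - θ) * Real.exp (a - α) + θ * Real.exp (b - β)) := by gcongr
      _ = _ := by rw [sub_eq_add_neg a, sub_eq_add_neg b, Real.exp_add, Real.exp_add]; ring
  · have e1 : Real.exp (-α) * Real.exp α = 1 := by rw [← Real.exp_add]; simp
    have e2 : Real.exp (-β) * Real.exp β = 1 := by rw [← Real.exp_add]; simp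
    calc _ = K * (1 - θ) * (Real.exp (-α) * Real.exp α) + K * θ * (Real.exp (-β) * Real.exp β) := by
          ring
      _ = K := by rw [e1, e2]; ring
      _ ≤ _ := by
          rw [hK, mul_assoc, ← hβ]
          exact Real.exp_le_exp.mpr (by nlinarith)

noncomputable def tm (t : ℕ → ℝ) (k : ℕ) : ℕ → ℝ := fun j => t j * min 1 (3 * (Rs j : ℝ) / k)

lemma Adm.tm {t : ℕ → ℝ} (h : Adm t) (k : ℕ) : Adm (tm t k) := by
  have h0 : ∀ j, 0 ≤ min 1 (3 * (Rs j : ℝ) / k) := fun j => le_min zero_le_one (by positivity)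
  exact ⟨fun j => mul_nonneg (h.nonneg j) (h0 j),
    Summable.of_nonneg_of_le (fun j => mul_nonneg (h.nonneg j) (h0 j))
      (fun j => mul_le_of_le_one_right (h.nonneg j) (min_le_left _ _)) h.summ⟩

lemma cross_le {t : ℕ → ℝ} (h : Adm t) {k : ℕ} (hk : 0 < k) (a b : E) :
    ∑ s ∈ range k, ind (box k s a ≠ box k s b) * At t (dist a b) ≤ k * At (tm t k) (dist a b) := by
  rw [← Finset.sum_mul]
  obtain ⟨n, hn⟩ : ∃ n, n = ∑ s ∈ range k, ind (box k s a ≠ box k s b) := ⟨_, rfl⟩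
  have hk' : (0 : ℝ) < k := by exact_mod_cast hk
  have hn1 : n ≤ k := by
    rw [hn]
    calc _ ≤ ∑ s ∈ range k, (1 : ℝ) := Finset.sum_le_sum fun _ _ => ind_le_one _
      _ = k := by simp
  rw [← hn]
  unfold At
  rw [← tsum_mul_left, ← tsum_mul_left]
  refine ((h.summJ _).mul_left _).tsum_le_tsum (fun j => ?_) (((h.tm k).summJ _).mul_left _)
  by_cases hd : dist a b ≤ Rs j
  · have hn2 : n ≤ 3 * Rs j := hn ▸ box_count k hd
    have h3 : n ≤ k * min 1 (3 * (Rs j : ℝ) / k) := by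
      rw [mul_min_of_nonneg _ _ hk'.le, mul_one, mul_div_cancel₀ _ hk'.ne']
      exact le_min hn1 hn2
    have h4 := mul_nonneg (h.nonneg j) (Jk_nonneg (Rs j) (dist a b))
    unfold Vale.Agent.P171.tm
    nlinarith
  · simp [Jk, ind_neg hd]

noncomputable def Ws (t : ℕ → ℝ) (θ c : ℝ) (k s : ℕ) : E → E → ℝ :=
  fun a b => ind (box k s a = box k s b) * Wp t θ c a b

lemma decouple_pt {t : ℕ → ℝ} (h : Adm t) {k : ℕ} (hk : 0 < k) {τ η : ℝ} (hτ : 0 ≤ τ)
    (W : E → E → ℝ) (hW : ∀ a b, W a b ≤ Wt t a b + τ * Jk k (dist a b))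
    (hη : 27 * nrm (tm t k) + 27 * τ / (k : ℝ) ^ 3 ≤ η) (μ : ℝ) {N : ℕ} (x : Fin N → E) :
    ∃ s ∈ range k, En (fun _ => μ) W x ≤
      En (fun _ => μ + η) (Ws t η (27 * τ / (k : ℝ) ^ 3) k s) x := by
  have hk' : (0 : ℝ) < k := by exact_mod_cast hk
  have h1 : ∑ s ∈ range k, S2 (fun a b => ind (box k s a ≠ box k s b) * At t (dist a b)) x
      ≤ ∑ s ∈ range k, 27 * nrm (tm t k) * YY x := by
    rw [← S2_sum]
    refine (S2_mono (W' := fun a b => k * At (tm t k) (dist a b))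
      fun i j => cross_le h hk _ _).trans ?_
    rw [S2_mul, Finset.sum_const, Finset.card_range, nsmul_eq_mul]
    gcongr
    exact S2_At (h.tm k) x
  obtain ⟨s, hs, hs'⟩ := Finset.exists_le_of_sum_le ⟨0, Finset.mem_range.mpr hk⟩ h1
  refine ⟨s, hs, ?_⟩
  obtain ⟨c, hc⟩ : ∃ c, c = 27 * τ / (k : ℝ) ^ 3 := ⟨_, rfl⟩
  have hc0 : 0 ≤ c := by rw [hc]; positivity
  rw [← hc] at hη ⊢
  have h2 := S2_Jk (c := ((k : ℝ) ^ 3)⁻¹) (box k s) 1 k hk (by rw [div_eq_mul_inv]; norm_num)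
    (fun a b hd d => box_near hk s hd d) x
  have h3 : S2 W x ≤ S2 (fun a b => (ind (box k s a = box k s b) * Wt t a b +
      ind (box k s a ≠ box k s b) * At t (dist a b)) + τ * Jk k (dist a b)) x := by
    refine S2_mono fun i j => (hW _ _).trans ?_
    by_cases hb : box k s (x i) = box k s (x j)
    · rw [ind_pos hb, ind_neg (not_not.mpr hb)]; linarith
    · rw [ind_neg hb, ind_pos hb]
      have := mul_nonneg AA_pos.le (ind_nonneg (dist (x i) (x j) < 2))
      simp only [Wt, phi]; linarith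
  rw [S2_add, S2_add, S2_mul] at h3
  have h4 : S2 (Ws t η c k s) x = S2 (fun a b => ind (box k s a = box k s b) * Wt t a b) x
      + η * S2 sc x + c * S2 (fun a b => ind (box k s a = box k s b)) x := by
    rw [← S2_mul, ← S2_mul, ← S2_add, ← S2_add]
    congr 1
    ext a b
    simp only [Ws, Wp, sc]
    by_cases hcell : cell a = cell b
    · have : box k s a = box k s b := by
        ext d; have := congrFun hcell d; simp only [cell] at this; simp only [box, this]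
      rw [ind_pos hcell, ind_pos this]; ring
    · rw [ind_neg hcell]; ring
  have h5 : τ * S2 (fun a b => Jk k (dist a b)) x ≤
      c * (N + S2 (fun a b => ind (box k s a = box k s b)) x) := by
    calc _ ≤ τ * (27 * ((k : ℝ) ^ 3)⁻¹ * (N + S2 (fun a b => ind (box k s a = box k s b)) x)) := by
          gcongr
      _ = _ := by rw [hc]; ring
  rw [En_const, En_const, h4]
  have h6 := S2_sc_nonneg x
  have h7 : (0 : ℝ) ≤ N := by positivity
  unfold YY at hs'
  nlinarith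

lemma box_sub {k : ℕ} (hk : 0 < k) (s : ℕ) (q : Fin 3 → ℤ) :
    box k s ⁻¹' {q} ⊆ (fun a => a + (WithLp.toLp 2 fun d => ((s - k * q d : ℤ) : ℝ) : E)) ⁻¹'
      Lam k := by
  intro x hx d
  have h1 : (⌊x d⌋ + s) / k = q d := congrFun hx d
  have hk' : (0 : ℤ) < k := by omega
  have h3 := Int.mul_ediv_add_emod (⌊x d⌋ + s) k
  have h5 := Int.emod_lt_of_pos (⌊x d⌋ + s) hk'
  have h6 := Int.emod_nonneg (⌊x d⌋ + s) hk'.ne'
  rw [h1] at h3
  have h7 : 0 ≤ ⌊x d⌋ + (s - k * q d) := by omega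
  have h8 : ⌊x d⌋ + (s - k * q d) + 1 ≤ k := by omega
  have h7' : (0 : ℝ) ≤ ⌊x d⌋ + ((s - k * q d : ℤ) : ℝ) := by exact_mod_cast h7
  have h8' : (⌊x d⌋ : ℝ) + ((s - k * q d : ℤ) : ℝ) + 1 ≤ k := by exact_mod_cast h8
  have h9 := Int.floor_le (x d)
  have h10 := Int.lt_floor_add_one (x d)
  simp only [PiLp.add_apply, Pi.zero_apply, zero_add, Set.mem_Icc]
  constructor <;> linarith

lemma Wp_translate (t : ℕ → ℝ) (θ c : ℝ) (v : Fin 3 → ℤ) (a b : E) :
    Wp t θ c (a + (WithLp.toLp 2 fun d => (v d : ℝ) : E)) (b + (WithLp.toLp 2 fun d => (v d : ℝ) : E))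
      = Wp t θ c a b := by
  have : (cell (a + (WithLp.toLp 2 fun d => (v d : ℝ) : E)) =
      cell (b + (WithLp.toLp 2 fun d => (v d : ℝ) : E))) ↔ cell a = cell b := by
    simp only [funext_iff, cell, PiLp.add_apply, Int.floor_add_intCast, add_left_inj]
  simp only [Wp, Wt, sc, dist_add_right, this]

lemma decouple {t : ℕ → ℝ} (h : Adm t) {k : ℕ} (hk : 0 < k) {τ η : ℝ} (hτ : 0 ≤ τ)
    (W : E → E → ℝ) (hW : ∀ a b, W a b ≤ Wt t a b + τ * Jk k (dist a b))
    (hη : 27 * nrm (tm t k) + 27 * τ / (k : ℝ) ^ 3 ≤ η) (μ : ℝ) {γ : ℝ} (hγ : 0 ≤ γ)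
    (hX : Xi (Lam k) (fun _ => μ + η) (Wp t η (27 * τ / (k : ℝ) ^ 3)) ≤
      ENNReal.ofReal (Real.exp (γ * (k : ℝ) ^ 3))) {L : ℝ} (hL : 0 ≤ L) :
    Xi (Lam L) (fun _ => μ) W ≤ ENNReal.ofReal (k * Real.exp (γ * (L + 2 * k) ^ 3)) := by
  obtain ⟨c, hc⟩ : ∃ c, c = 27 * τ / (k : ℝ) ^ 3 := ⟨_, rfl⟩
  have hk' : (0 : ℝ) < k := by exact_mod_cast hk
  have hWs : ∀ s, Measurable (Function.uncurry (Ws t η c k s)) := fun s =>
    (measurable_ind_eq (measurable_box k s)).mul (h.measurable_Wp η c)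
  have h1 := Xi_le_sum (range k) (measurableSet_Lam L) (fun _ => μ) W (fun _ => 1)
    (fun _ => zero_le_one) (fun _ _ => μ + η) (fun s => Ws t η c k s) (fun _ => measurable_const)
    hWs (fun N x _ => by
      obtain ⟨s, hs, hs'⟩ := decouple_pt h hk hτ W hW hη μ x
      rw [← hc] at hs'
      refine le_trans ?_ (Finset.single_le_sum
        (f := fun s => 1 * Real.exp (En (fun _ => μ + η) (Ws t η c k s) x))
        (fun _ _ => by positivity) hs)
      simpa using hs')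
  rw [← hc] at hX
  obtain ⟨M, hM⟩ : ∃ M : ℕ, M = ⌊L / k⌋₊ + 1 := ⟨_, rfl⟩
  have hM' : ((M : ℝ) + 1) * k ≤ L + 2 * k := by
    have := Nat.floor_le (div_nonneg hL hk'.le)
    rw [le_div_iff₀ hk'] at this
    rw [hM]; push_cast; linarith
  obtain ⟨S, hS⟩ : ∃ S : Finset (Fin 3 → ℤ), S = Fintype.piFinset (fun _ => Finset.Icc (0 : ℤ) M) :=
    ⟨_, rfl⟩
  have hcard : S.card = (M + 1) ^ 3 := by
    rw [hS, Fintype.card_piFinset]
    simp only [Int.card_Icc, Finset.prod_const, Finset.card_univ, Fintype.card_fin]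
    congr 1
  have h2 : ∀ s ∈ range k, Xi (Lam L) (fun _ => μ + η) (Ws t η c k s) ≤
      ENNReal.ofReal (Real.exp (γ * (L + 2 * k) ^ 3)) := by
    intro s hs
    have hs' := Finset.mem_range.mp hs
    have hsub : Lam L ⊆ box k s ⁻¹' (S : Set (Fin 3 → ℤ)) := by
      intro x hx
      simp only [hS, Set.mem_preimage, Finset.mem_coe, Fintype.mem_piFinset, Finset.mem_Icc]
      intro d
      have hd := hx d
      simp only [Pi.zero_apply, zero_add, Set.mem_Icc] at hd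
      have hk'' : (0 : ℤ) < k := by omega
      have hf : 0 ≤ ⌊x d⌋ := Int.floor_nonneg.mpr hd.1
      refine ⟨Int.ediv_nonneg (by omega) hk''.le, ?_⟩
      have h3 : (⌊x d⌋ : ℝ) < (M : ℝ) * k := by
        have := Nat.lt_floor_add_one (L / k)
        rw [div_lt_iff₀ hk'] at this
        have h9 := Int.floor_le (x d)
        rw [hM]; push_cast; linarith
      have h4 : ⌊x d⌋ < (M : ℤ) * k := by exact_mod_cast h3
      have h5 : (⌊x d⌋ + s) / k < M + 1 := by
        rw [Int.ediv_lt_iff_lt_mul hk'']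
        have : (s : ℤ) < k := by omega
        nlinarith
      unfold box
      omega
    have hmb : ∀ q, MeasurableSet (box k s ⁻¹' {q}) := fun q =>
      measurable_box k s (MeasurableSet.singleton q)
    refine (Xi_mono hsub _ _).trans ?_
    rw [Xi_fibers (box k s) hmb (hWs s) (fun a b hab => by simp [Ws, ind_neg hab]) measurable_const]
    calc _ ≤ ∏ q ∈ S, ENNReal.ofReal (Real.exp (γ * (k : ℝ) ^ 3)) := by
          refine Finset.prod_le_prod' fun q _ => ?_
          rw [Xi_congr (hmb q) (V' := fun _ => μ + η) (W' := Wp t η c) (fun _ _ => rfl)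
            (fun a ha b hb => by
              have ha' : box k s a = q := ha
              have hb' : box k s b = q := hb
              simp [Ws, ind_pos (ha'.trans hb'.symm)])]
          refine (Xi_mono (box_sub hk s q) _ _).trans ?_
          rw [Xi_translate _ (measurableSet_Lam _) _ _ (h.measurable_Wp η c)
            (Wp_translate t η c (fun d => s - k * q d))]
          exact hX
      _ ≤ _ := by
          rw [Finset.prod_const, hcard, ← ENNReal.ofReal_pow (Real.exp_pos _).le,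
            ← Real.exp_nat_mul]
          refine ENNReal.ofReal_le_ofReal (Real.exp_le_exp.mpr ?_)
          push_cast
          calc ((M : ℝ) + 1) ^ 3 * (γ * (k : ℝ) ^ 3) = γ * (((M : ℝ) + 1) * k) ^ 3 := by ring
            _ ≤ _ := by gcongr
  refine h1.trans ?_
  calc _ ≤ ∑ s ∈ range k, ENNReal.ofReal (Real.exp (γ * (L + 2 * k) ^ 3)) :=
        Finset.sum_le_sum fun s hs => by simpa using h2 s hs
    _ = _ := by
        rw [Finset.sum_const, Finset.card_range, nsmul_eq_mul, ENNReal.ofReal_mul hk'.le,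
          ENNReal.ofReal_natCast]

end Vale.Agent.P171
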