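import Vale.Agent.P171.Lower

open MeasureTheory Finset Filter Topology
open scoped ENNReal Nat

namespace Vale.Agent.P171

def PS (t : ℕ → ℝ) (μ : ℝ) : Set ℝ :=
  {α | ∀ᶠ L : ℝ in atTop, Xi (Lam L) (fun _ => μ) (Wt t) ≤ ENNReal.ofReal (Real.exp (α * L ^ 3))}

noncomputable def pr (t : ℕ → ℝ) (μ : ℝ) : ℝ := sInf (PS t μ)

structure Good (t : ℕ → ℝ) : Prop where
  adm : Adm t
  small : 27 * nrm t + 1 ≤ AA

lemma Xi_apriori {t : ℕ → ℝ} (h : Good t) (μ : ℝ) {L : ℝ} (hL : 0 ≤ L) :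
    Xi (Lam L) (fun _ => μ) (Wt t) ≤
      ENNReal.ofReal (Real.exp (Real.exp (μ + (27 * nrm t + 1)) * L ^ 3)) := by
  refine le_trans ?_ (apriori h.adm h.small μ hL)
  refine Xi_le (measurableSet_Lam L) _ _ _ _ measurable_const (h.adm.measurable_Wp 1 0)
    fun N x _ => ?_
  rw [En_const, En_const, S2_Wp]
  have := S2_sc_nonneg x
  have h7 : (0 : ℝ) ≤ N := by positivity
  linarith

lemma PS_mem {t : ℕ → ℝ} (h : Good t) (μ : ℝ) : Real.exp (μ + (27 * nrm t + 1)) ∈ PS t μ :=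
  (eventually_ge_atTop 0).mono fun _ hL => Xi_apriori h μ hL

lemma PS_nonneg {t : ℕ → ℝ} {μ α : ℝ} (h : α ∈ PS t μ) : 0 ≤ α := by
  obtain ⟨L, hL, hL0⟩ := (Filter.Eventually.and h (eventually_gt_atTop 0)).exists
  have h1 := (one_le_Xi _ _ _).trans hL
  rw [ENNReal.one_le_ofReal, Real.one_le_exp_iff] at h1
  exact nonneg_of_mul_nonneg_left h1 (by positivity) |> fun h2 => by
    by_contra h3
    push Not at h3
    have : α * L ^ 3 < 0 := mul_neg_of_neg_of_pos h3 (by positivity)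
    linarith

lemma PS_bdd (t : ℕ → ℝ) (μ : ℝ) : BddBelow (PS t μ) := ⟨0, fun _ h => PS_nonneg h⟩

lemma pr_le {t : ℕ → ℝ} {μ α : ℝ} (h : α ∈ PS t μ) : pr t μ ≤ α := csInf_le (PS_bdd t μ) h

lemma pr_nonneg (t : ℕ → ℝ) (μ : ℝ) : 0 ≤ pr t μ := Real.sInf_nonneg fun _ h => PS_nonneg h

lemma pr_lt {t : ℕ → ℝ} (h : Good t) {μ α : ℝ} (hα : pr t μ < α) : α ∈ PS t μ := by
  obtain ⟨a, ha, ha'⟩ := exists_lt_of_csInf_lt ⟨_, PS_mem h μ⟩ hα
  filter_upwards [ha, eventually_ge_atTop 0] with L hL hL0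
  refine hL.trans (ENNReal.ofReal_le_ofReal ?_)
  gcongr

lemma pr_le_of_dec {t : ℕ → ℝ} {μ γ : ℝ} (hγ : 0 ≤ γ) {k : ℕ} (hk : 0 < k)
    (h : ∀ L : ℝ, 0 ≤ L → Xi (Lam L) (fun _ => μ) (Wt t) ≤
      ENNReal.ofReal (k * Real.exp (γ * (L + 2 * k) ^ 3))) : pr t μ ≤ γ := by
  refine le_of_forall_pos_le_add fun ε hε => pr_le ?_
  have hk' : (1 : ℝ) ≤ k := by exact_mod_cast hk
  filter_upwards [eventually_ge_atTop 1, eventually_ge_atTop ((k + 26 * γ * (k : ℝ) ^ 3) / ε)]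
    with L hL1 hL2
  refine (h L (by linarith)).trans (ENNReal.ofReal_le_ofReal ?_)
  rw [div_le_iff₀ hε] at hL2
  have h1 : (k : ℝ) ≤ Real.exp k := by linarith [Real.add_one_le_exp (k : ℝ)]
  have hL3 : 1 ≤ L ^ 2 := one_le_pow₀ hL1
  have hL4 : L ≤ L ^ 2 := by nlinarith
  have k2 : (k : ℝ) ^ 2 ≤ (k : ℝ) ^ 3 := pow_le_pow_right₀ hk' (by norm_num)
  have k1 : (k : ℝ) ≤ (k : ℝ) ^ 3 := by
    calc (k : ℝ) = (k : ℝ) ^ 1 := by ring
      _ ≤ _ := pow_le_pow_right₀ hk' (by norm_num)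
  have h2 : (L + 2 * k) ^ 3 ≤ L ^ 3 + 26 * (k : ℝ) ^ 3 * L ^ 2 := by
    have e1 : (k : ℝ) * L ^ 2 ≤ (k : ℝ) ^ 3 * L ^ 2 := by gcongr
    have e2 : (k : ℝ) ^ 2 * L ≤ (k : ℝ) ^ 3 * L ^ 2 := by gcongr
    have e3 : (k : ℝ) ^ 3 * 1 ≤ (k : ℝ) ^ 3 * L ^ 2 := by gcongr
    nlinarith
  calc _ ≤ Real.exp k * Real.exp (γ * (L + 2 * k) ^ 3) := by gcongr
    _ = Real.exp (k + γ * (L + 2 * k) ^ 3) := (Real.exp_add _ _).symm
    _ ≤ _ := by
        refine Real.exp_le_exp.mpr ?_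
        have e1 : γ * (L + 2 * k) ^ 3 ≤ γ * (L ^ 3 + 26 * (k : ℝ) ^ 3 * L ^ 2) := by gcongr
        have e2 : (k : ℝ) * 1 ≤ k * L ^ 2 := by gcongr
        have e3 : (k + 26 * γ * (k : ℝ) ^ 3) * L ^ 2 ≤ L * ε * L ^ 2 := by gcongr
        nlinarith

lemma pr_lower {t : ℕ → ℝ} (h : Good t) (μ : ℝ) : (μ + nrm t / 2000) / 27 ≤ pr t μ := by
  refine le_csInf ⟨_, PS_mem h μ⟩ fun α hα => ?_
  have h1 : ∀ D, (μ + (∑ j ∈ range D, t j) / 2000) / 27 ≤ α := by
    intro D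
    have ht : Tendsto (fun M : ℕ => 3 * (M : ℝ)) atTop atTop :=
      tendsto_natCast_atTop_atTop.const_mul_atTop (by norm_num)
    obtain ⟨M, hM, hM'⟩ := ((ht.eventually hα).and (eventually_ge_atTop (10 * (D + 2)))).exists
    have h2 := (Xi_lower h.adm μ D M hM').trans hM
    rw [ENNReal.ofReal_le_ofReal_iff (Real.exp_pos _).le, Real.exp_le_exp] at h2
    have hM0 : (0 : ℝ) < M := by exact_mod_cast (by omega : 0 < M)
    have h3 : (μ + (∑ j ∈ range D, t j) / 2000) * (M : ℝ) ^ 3 ≤ (27 * α) * (M : ℝ) ^ 3 := by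
      linarith [show α * (3 * (M : ℝ)) ^ 3 = (27 * α) * (M : ℝ) ^ 3 by ring]
    have := le_of_mul_le_mul_right h3 (by positivity)
    linarith
  have h4 : Tendsto (fun D => (μ + (∑ j ∈ range D, t j) / 2000) / 27) atTop
      (𝓝 ((μ + nrm t / 2000) / 27)) :=
    ((h.adm.summ.hasSum.tendsto_sum_nat.div_const _).const_add _).div_const _
  exact le_of_tendsto' h4 h1

lemma tendsto_tm {t : ℕ → ℝ} (h : Adm t) : Tendsto (fun k => nrm (tm t k)) atTop (𝓝 0) := by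
  have := tendsto_tsum_of_dominated_convergence (𝓕 := atTop) (f := fun k j => tm t k j)
    (g := fun _ => 0) (bound := t) h.summ (fun j => by
      have h1 : Tendsto (fun k : ℕ => 3 * (Rs j : ℝ) / k) atTop (𝓝 0) :=
        tendsto_const_div_atTop_nhds_zero_nat _
      have h2 := ((tendsto_const_nhds (x := (1 : ℝ))).min h1).const_mul (t j)
      simpa [tm] using h2)
    (Eventually.of_forall fun k j => by
      rw [Real.norm_of_nonneg ((h.tm k).nonneg j)]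
      exact mul_le_of_le_one_right (h.nonneg j) (min_le_left _ _))
  simpa [nrm] using this

lemma CC_pos (μ : ℝ) : 0 < CC μ := Real.exp_pos _

lemma CC_mono {μ μ' : ℝ} (h : μ ≤ μ') : CC μ ≤ CC μ' := by unfold CC; gcongr

lemma pr_cont {t u : ℕ → ℝ} (h : Good t) (hu : Adm u) (hu1 : 27 * nrm u ≤ 1) (μ : ℝ) :
    pr (t + u) μ ≤ pr t μ + 27 * nrm u * CC μ := by
  refine le_of_forall_pos_le_add fun ε hε => pr_le ?_
  have h0 := pr_nonneg t μ
  have hu0 := hu.nrm_nonneg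
  filter_upwards [pr_lt h (show pr t μ < pr t μ + ε by linarith), eventually_ge_atTop 0]
    with L hL hL0
  have h1 := holder h.adm h.small μ hL0 (θ := 27 * nrm u) (by positivity) (by positivity) hu1 hL
  refine le_trans ?_ (h1.trans (le_of_eq (by congr 2; ring)))
  refine Xi_le (measurableSet_Lam L) _ _ _ _ measurable_const (h.adm.measurable_Wp _ 0)
    fun N x _ => ?_
  have h2 : Wt (t + u) = fun a b => Wt t a b + At u (dist a b) := by
    ext a b
    simp only [Wt, phi, At, Pi.add_apply, add_mul]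
    rw [(h.adm.summJ _).tsum_add (hu.summJ _)]
    ring
  rw [En_const, En_const, S2_Wp, h2, S2_add]
  have := S2_At hu x
  unfold YY at this
  linarith

lemma pr_limit_lower {t : ℕ → ℝ} (h : Good t) {μ α : ℝ} (hα : α < pr t μ) :
    ∀ᶠ L : ℝ in atTop, ENNReal.ofReal (Real.exp (α * L ^ 3)) ≤ Xi (Lam L) (fun _ => μ) (Wt t) := by
  rcases lt_or_ge α 0 with h0 | h0
  · filter_upwards [eventually_ge_atTop 0] with L hL
    refine le_trans ?_ (one_le_Xi _ _ _)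
    rw [ENNReal.ofReal_le_one, Real.exp_le_one_iff]
    exact mul_nonpos_of_nonpos_of_nonneg h0.le (by positivity)
  obtain ⟨a, ha⟩ : ∃ a, a = (α + pr t μ) / 2 := ⟨_, rfl⟩
  have hC := CC_pos μ
  obtain ⟨η, hη⟩ : ∃ η, η = min 1 ((pr t μ - a) / (2 * CC μ)) := ⟨_, rfl⟩
  have ha1 : α < a := by linarith
  have ha2 : a < pr t μ := by linarith
  have ha0 : 0 ≤ a := by linarith
  have hη0 : 0 < η := by rw [hη]; exact lt_min one_pos (div_pos (by linarith) (by positivity))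
  have hη1 : η ≤ 1 := by rw [hη]; exact min_le_left _ _
  have hη2 : η * CC μ ≤ (pr t μ - a) / 2 := by
    have : η ≤ (pr t μ - a) / (2 * CC μ) := by rw [hη]; exact min_le_right _ _
    rw [le_div_iff₀ (by positivity)] at this
    linarith
  have h1 : ∀ᶠ k : ℕ in atTop,
      ENNReal.ofReal (Real.exp (a * (k : ℝ) ^ 3)) ≤ Xi (Lam k) (fun _ => μ) (Wt t) := by
    have h2 := ((tendsto_tm h.adm).const_mul 27).eventually
      (gt_mem_nhds (show 27 * (0 : ℝ) < η by linarith))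
    filter_upwards [h2, eventually_gt_atTop 0] with k hk hk0
    by_contra hc
    push Not at hc
    have h3 := holder h.adm h.small μ (Nat.cast_nonneg k) (θ := η)
      (mul_nonneg (by linarith) (by positivity)) hη0.le hη1 hc.le
    have h4 := pr_le_of_dec (γ := a + η * CC μ) (by positivity) hk0 fun L hL =>
      decouple h.adm hk0 (τ := 0) (η := η) le_rfl (Wt t) (fun a b => by simp) (by simpa using hk.le)
        μ (by positivity) (by
          simp only [mul_zero, zero_div]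
          exact h3.trans (le_of_eq (by congr 2; ring))) hL
    linarith
  filter_upwards [tendsto_nat_floor_atTop.eventually h1, eventually_ge_atTop 1,
    eventually_ge_atTop (3 * a / (a - α))] with L hL hL1 hL2
  have hsub : Lam (⌊L⌋₊ : ℝ) ⊆ Lam L := by
    intro x hx d
    have := hx d
    simp only [Set.mem_Icc, Pi.zero_apply, zero_add] at this ⊢
    exact ⟨this.1, this.2.trans (Nat.floor_le (by linarith))⟩
  refine le_trans (ENNReal.ofReal_le_ofReal (Real.exp_le_exp.mpr ?_)) (hL.trans (Xi_mono hsub _ _))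
  rw [div_le_iff₀ (by linarith)] at hL2
  have h5 : L - 1 ≤ (⌊L⌋₊ : ℝ) := (Nat.sub_one_lt_floor L).le
  have h6 : (L - 1) ^ 3 ≤ (⌊L⌋₊ : ℝ) ^ 3 := by gcongr
  have h7 : L ^ 3 - 3 * L ^ 2 ≤ (L - 1) ^ 3 := by nlinarith
  have h8 : a * (L ^ 3 - 3 * L ^ 2) ≤ a * (⌊L⌋₊ : ℝ) ^ 3 := by
    gcongr
    linarith
  have h9 : 3 * a * L ^ 2 ≤ L * (a - α) * L ^ 2 := by gcongr
  nlinarith

lemma box_bound {t : ℕ → ℝ} (h : Good t) {k : ℕ} (hk : 0 < k) {μ p ρ hh τ η ε : ℝ}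
    (hp : 0 ≤ p) (hρ : 0 < ρ) (hh0 : 0 < hh) (hh1 : hh ≤ 1) (hτ : 0 ≤ τ) (hη : 0 ≤ η) (hε : 0 ≤ ε)
    (hτ1 : 729 * τ ≤ 1 / 2) (hη1 : η ≤ 1 / 2) (hτ2 : 729 * τ * CC (μ + 1) ≤ ρ * hh / 2)
    (hη2 : η * CC (μ + 1) ≤ ε) (hk2 : 1 ≤ ε * (k : ℝ) ^ 3)
    (hX1 : Xi (Lam k) (fun _ => μ) (Wt t) ≤ ENNReal.ofReal (Real.exp ((p + ε) * (k : ℝ) ^ 3)))
    (hX2 : Xi (Lam k) (fun _ => μ + hh) (Wt t) ≤
      ENNReal.ofReal (Real.exp ((p + 3 / 2 * ρ * hh + ε) * (k : ℝ) ^ 3))) :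
    Xi (Lam k) (fun _ => μ + η) (Wp t η (27 * τ / (k : ℝ) ^ 3)) ≤
      ENNReal.ofReal (Real.exp ((p + 3 * ε + 54 * τ * ρ ^ 2) * (k : ℝ) ^ 3)) := by
  have hk' : (1 : ℝ) ≤ k := by exact_mod_cast hk
  obtain ⟨K, hK⟩ : ∃ K, K = (k : ℝ) ^ 3 := ⟨_, rfl⟩
  have hK0 : 0 < K := by rw [hK]; positivity
  have h1 := holder h.adm h.small μ (Nat.cast_nonneg k) (θ := η) (by positivity) hη (by linarith) hX1
  have h2 := holder h.adm h.small (μ + hh) (Nat.cast_nonneg k) (θ := η + 729 * τ) (by positivity)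
    (by positivity) (by linarith) hX2
  rw [← hK] at h1 h2 hk2 ⊢
  refine (Xi_le_two (measurableSet_Lam k) _ _ (Real.exp (54 * τ * ρ ^ 2 * K))
    (Real.exp (-(2 * ρ * hh * K))) _ _ (by positivity) (by positivity) _ _
    (h.adm.measurable_Wp _ 0) (h.adm.measurable_Wp _ 0) (fun N x hx => ?_) _ _ h1 h2).trans
    (ENNReal.ofReal_le_ofReal ?_)
  · rw [← Real.exp_add, ← Real.exp_add]
    have hs0 : 0 ≤ S2 (fun _ _ => (1 : ℝ)) x := S2_nonneg fun _ _ => zero_le_one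
    have hN0 : (0 : ℝ) ≤ N := by positivity
    rcases le_total (N : ℝ) (2 * ρ * K) with hN | hN
    · refine le_trans (Real.exp_le_exp.mpr ?_) (le_add_of_nonneg_right (Real.exp_pos _).le)
      simp only [En_const, S2_Wp]
      have h3 : 27 * τ / K * S2 (fun _ _ => (1 : ℝ)) x ≤ 54 * τ * ρ ^ 2 * K := by
        calc _ ≤ 27 * τ / K * ((2 * ρ * K) ^ 2 / 2) := by
              gcongr
              refine (S2_one_le x).trans ?_
              gcongr
          _ = _ := by field_simp; ring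
      linarith
    · refine le_trans (Real.exp_le_exp.mpr ?_) (le_add_of_nonneg_left (Real.exp_pos _).le)
      simp only [En_const, S2_Wp]
      have h3 := S2_near_le cell k (fun _ _ => 1) x (fun i j => by
        refine (ind_pos fun d => ?_).ge
        have hi := hx i d
        have hj := hx j d
        simp only [Set.mem_Icc, Pi.zero_apply, zero_add] at hi hj
        have a1 : 0 ≤ ⌊x i d⌋ := Int.floor_nonneg.mpr hi.1
        have a2 : 0 ≤ ⌊x j d⌋ := Int.floor_nonneg.mpr hj.1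
        have a3 : ⌊x i d⌋ ≤ k := by
          have := Int.floor_mono hi.2; rwa [Int.floor_natCast] at this
        have a4 : ⌊x j d⌋ ≤ k := by
          have := Int.floor_mono hj.2; rwa [Int.floor_natCast] at this
        unfold cell
        rw [abs_le]; constructor <;> omega)
      have hY := YY_nonneg x
      have h4 : S2 (fun _ _ => (1 : ℝ)) x ≤ 27 * K * YY x := by
        refine h3.trans ?_
        change _ * YY x ≤ _
        gcongr
        calc (2 * k + 1 : ℝ) ^ 3 ≤ (3 * k) ^ 3 := by gcongr; linarith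
          _ = _ := by rw [hK]; ring
      have h5 : 27 * τ / K * S2 (fun _ _ => (1 : ℝ)) x ≤ 729 * τ * YY x := by
        calc _ ≤ 27 * τ / K * (27 * K * YY x) := by gcongr
          _ = _ := by field_simp; ring
      have h6 : hh * (2 * ρ * K) ≤ hh * N := by gcongr
      unfold YY at h5
      linarith
  · rw [← Real.exp_add, ← Real.exp_add]
    have c1 : η * CC μ ≤ ε := le_trans (by gcongr; exact CC_mono (by linarith)) hη2
    have c2 : (η + 729 * τ) * CC (μ + hh) ≤ ε + ρ * hh / 2 := by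
      calc _ ≤ (η + 729 * τ) * CC (μ + 1) := by gcongr; exact CC_mono (by linarith)
        _ ≤ _ := by linarith
    have c3 : η * CC μ * K ≤ ε * K := by gcongr
    have c4 : (η + 729 * τ) * CC (μ + hh) * K ≤ (ε + ρ * hh / 2) * K := by gcongr
    have c5 : 0 ≤ 54 * τ * ρ ^ 2 * K := by positivity
    have c6 : (2 : ℝ) ≤ Real.exp (ε * K) := by linarith [Real.add_one_le_exp (ε * K)]
    calc _ ≤ Real.exp ((p + 2 * ε + 54 * τ * ρ ^ 2) * K) +
          Real.exp ((p + 2 * ε + 54 * τ * ρ ^ 2) * K) := by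
          gcongr <;> linarith
      _ = 2 * Real.exp ((p + 2 * ε + 54 * τ * ρ ^ 2) * K) := by ring
      _ ≤ Real.exp (ε * K) * Real.exp ((p + 2 * ε + 54 * τ * ρ ^ 2) * K) := by gcongr
      _ = _ := by rw [← Real.exp_add]; congr 1; ring

lemma step {t : ℕ → ℝ} (h : Good t) {μ ρ hh : ℝ} (hρ : 0 < ρ) (hh0 : 0 < hh) (hh1 : hh ≤ 1)
    (hd : pr t (μ + hh) ≤ pr t μ + 3 / 2 * ρ * hh) :
    ∃ τ, 0 < τ ∧ τ ≤ 1 ∧ ∃ j, pr (t + Pi.single j τ) μ ≤ pr t μ + 60 * τ * ρ ^ 2 := by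
  have hC := CC_pos (μ + 1)
  obtain ⟨τ, hτ⟩ : ∃ τ, τ = min (1 / 1458) (ρ * hh / (1458 * CC (μ + 1))) := ⟨_, rfl⟩
  have hτ0 : 0 < τ := by rw [hτ]; exact lt_min (by norm_num) (by positivity)
  have hτ1 : τ ≤ 1 / 1458 := by rw [hτ]; exact min_le_left _ _
  have hτ2 : 729 * τ * CC (μ + 1) ≤ ρ * hh / 2 := by
    have : τ ≤ ρ * hh / (1458 * CC (μ + 1)) := by rw [hτ]; exact min_le_right _ _
    rw [le_div_iff₀ (by positivity)] at this
    linarith
  obtain ⟨ε, hε⟩ : ∃ ε, ε = 2 * τ * ρ ^ 2 := ⟨_, rfl⟩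
  have hε0 : 0 < ε := by rw [hε]; positivity
  obtain ⟨η, hη⟩ : ∃ η, η = min (1 / 2) (ε / CC (μ + 1)) := ⟨_, rfl⟩
  have hη0 : 0 < η := by rw [hη]; exact lt_min (by norm_num) (by positivity)
  have hη1 : η ≤ 1 / 2 := by rw [hη]; exact min_le_left _ _
  have hη2 : η * CC (μ + 1) ≤ ε := by
    have : η ≤ ε / CC (μ + 1) := by rw [hη]; exact min_le_right _ _
    rwa [le_div_iff₀ hC] at this
  have hp := pr_nonneg t μ
  have e1 := tendsto_natCast_atTop_atTop.eventually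
    (pr_lt h (show pr t μ < pr t μ + ε by linarith))
  have e2 := tendsto_natCast_atTop_atTop.eventually
    (pr_lt h (show pr t (μ + hh) < pr t μ + 3 / 2 * ρ * hh + ε by linarith))
  have hk3 : Tendsto (fun k : ℕ => (k : ℝ) ^ 3) atTop atTop :=
    (tendsto_pow_atTop (by norm_num)).comp tendsto_natCast_atTop_atTop
  have e3 := (((tendsto_tm h.adm).const_mul 27).add
    ((tendsto_const_nhds (x := 27 * τ)).div_atTop hk3)).eventually
    (gt_mem_nhds (show 27 * (0 : ℝ) + 0 < η by linarith))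
  have e4 := (hk3.const_mul_atTop hε0).eventually_ge_atTop 1
  have hR : Tendsto Rs atTop atTop :=
    tendsto_atTop_mono (fun j => by unfold Rs; simp only [id]; omega) tendsto_id
  obtain ⟨j, f1, f2, f3, f4⟩ := (hR.eventually (e1.and (e2.and (e3.and e4)))).exists
  refine ⟨τ, hτ0, by linarith, j, ?_⟩
  have hb := box_bound h (Rs_pos j) hp hρ hh0 hh1 hτ0.le hη0.le hε0.le (by linarith) hη1 hτ2 hη2
    f4 f1 f2
  have h4 := pr_le_of_dec (t := t + Pi.single j τ) (μ := μ)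
    (γ := pr t μ + 3 * ε + 54 * τ * ρ ^ 2) (by positivity) (Rs_pos j)
    fun L hL => decouple h.adm (Rs_pos j) hτ0.le _ (fun a b => by
      have hs : HasSum (fun i => (Pi.single j τ : ℕ → ℝ) i * Jk (Rs i) (dist a b))
          (τ * Jk (Rs j) (dist a b)) := by
        have := hasSum_single (f := fun i => (Pi.single j τ : ℕ → ℝ) i * Jk (Rs i) (dist a b)) j
          (fun i hi => by simp [Pi.single_eq_of_ne hi])
        simpa using this
      simp only [Wt, phi, At, Pi.add_apply, add_mul]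
      rw [(h.adm.summJ _).tsum_add hs.summable, hs.tsum_eq]
      linarith) f3.le μ (by positivity) hb hL
  linarith

end Vale.Agent.P171
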