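import Vale.Agent.P171.Press

open MeasureTheory Finset Filter Topology
open scoped ENNReal Nat

namespace Vale.Agent.P171

noncomputable def rho : ℝ := 1 / 10 ^ 6

def SS : Set (ℕ → ℝ) :=
  {t | Adm t ∧ nrm t ≤ 12 * 10 ^ 9 + 1 ∧ ∃ μ, pr t μ - rho * μ ≤ 3 + rho / 4000 * nrm t}

lemma good_of {t : ℕ → ℝ} (h : Adm t) (h2 : nrm t ≤ 12 * 10 ^ 9 + 1) : Good t :=
  ⟨h, by unfold AA; linarith⟩

lemma SS_bound {t : ℕ → ℝ} (h : Adm t) (h2 : nrm t ≤ 12 * 10 ^ 9 + 1) {μ : ℝ}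
    (h3 : pr t μ - rho * μ ≤ 3 + rho / 4000 * nrm t) : nrm t ≤ 12 * 10 ^ 9 ∧ μ ≤ 200 := by
  have h4 := pr_lower (good_of h h2) μ
  have h5 := pr_nonneg t μ
  have h6 := h.nrm_nonneg
  unfold rho at h3
  constructor <;> linarith

lemma exists_min {t : ℕ → ℝ} (h : Good t) (hc : Continuous (pr t)) :
    ∃ μ, ∀ ν, pr t μ - rho * μ ≤ pr t ν - rho * ν := by
  refine Continuous.exists_forall_le (f := fun μ => pr t μ - rho * μ) (by fun_prop) ?_
  have hρ : 0 < rho := by unfold rho; positivity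
  refine tendsto_atTop_mono (f := fun μ => rho * ‖μ‖) (fun μ => ?_)
    (Filter.Tendsto.const_mul_atTop hρ tendsto_norm_cocompact_atTop)
  have h4 := pr_lower h μ
  have h5 := pr_nonneg t μ
  have h6 := h.adm.nrm_nonneg
  rw [Real.norm_eq_abs]
  unfold rho
  rcases le_total 0 μ with h0 | h0
  · rw [abs_of_nonneg h0]; linarith
  · rw [abs_of_nonpos h0]; linarith

lemma Adm.le_nrm {t : ℕ → ℝ} (h : Adm t) (F : Finset ℕ) : ∑ j ∈ F, t j ≤ nrm t :=
  h.summ.sum_le_tsum _ fun j _ => h.nonneg j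

lemma chain_bound (H : ∀ t, Good t → Differentiable ℝ (pr t)) (c : Set (ℕ → ℝ)) (hc : c ⊆ SS)
    (hch : IsChain (· ≤ ·) c) (y : ℕ → ℝ) (hy : y ∈ c) : ∃ ub ∈ SS, ∀ z ∈ c, z ≤ ub := by
  have hb : ∀ t ∈ c, nrm t ≤ 12 * 10 ^ 9 := fun t ht => by
    obtain ⟨h1, h2, μ, h3⟩ := hc ht
    exact (SS_bound h1 h2 h3).1
  obtain ⟨T, hT⟩ : ∃ T : ℕ → ℝ, T = fun j => sSup ((fun t => t j) '' c) := ⟨_, rfl⟩
  have hbdd : ∀ j, BddAbove ((fun t : ℕ → ℝ => t j) '' c) := fun j =>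
    ⟨12 * 10 ^ 9, by
      rintro _ ⟨t, ht, rfl⟩
      have := (hc ht).1.le_nrm {j}
      rw [Finset.sum_singleton] at this
      exact this.trans (hb t ht)⟩
  have hle : ∀ t ∈ c, t ≤ T := fun t ht j => by
    rw [hT]; exact le_csSup (hbdd j) ⟨t, ht, rfl⟩
  have hfin : ∀ ε > 0, ∀ F : Finset ℕ, ∃ t ∈ c, ∀ j ∈ F, T j ≤ t j + ε := by
    intro ε hε F
    induction F using Finset.induction_on with
    | empty => exact ⟨y, hy, by simp⟩
    | insert j F hj ih =>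
      obtain ⟨t1, ht1, h1⟩ := ih
      have : T j - ε < sSup ((fun t : ℕ → ℝ => t j) '' c) := by rw [hT]; simp only; linarith
      obtain ⟨_, ⟨t2, ht2, rfl⟩, h2⟩ := exists_lt_of_lt_csSup (Set.Nonempty.image _ ⟨y, hy⟩) this
      simp only at h2
      rcases hch.total ht1 ht2 with h | h
      · refine ⟨t2, ht2, fun i hi => ?_⟩
        rcases Finset.mem_insert.mp hi with rfl | hi
        · linarith
        · linarith [h1 i hi, h i]
      · refine ⟨t1, ht1, fun i hi => ?_⟩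
        rcases Finset.mem_insert.mp hi with rfl | hi
        · linarith [h i]
        · exact h1 i hi
  have hsum : ∀ δ > 0, ∀ F : Finset ℕ, ∃ t ∈ c, ∑ j ∈ F, T j ≤ nrm t + δ := by
    intro δ hδ F
    obtain ⟨t, ht, h⟩ := hfin (δ / (F.card + 1)) (by positivity) F
    refine ⟨t, ht, (Finset.sum_le_sum h).trans ?_⟩
    rw [Finset.sum_add_distrib, Finset.sum_const, nsmul_eq_mul]
    have h1 := (hc ht).1.le_nrm F
    have h2 : (F.card : ℝ) * (δ / (F.card + 1)) ≤ δ := by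
      rw [← mul_div_assoc, div_le_iff₀ (by positivity)]; nlinarith
    linarith
  have hT0 : ∀ j, 0 ≤ T j := fun j => ((hc hy).1.nonneg j).trans (hle y hy j)
  have hF : ∀ F : Finset ℕ, ∑ j ∈ F, T j ≤ 12 * 10 ^ 9 := fun F =>
    le_of_forall_pos_le_add fun δ hδ => by
      obtain ⟨t, ht, h⟩ := hsum δ hδ F
      linarith [hb t ht]
  have hTa : Adm T := ⟨hT0, summable_of_sum_le hT0 hF⟩
  have hTn : nrm T ≤ 12 * 10 ^ 9 := hTa.summ.tsum_le_of_sum_le hF
  have hTg : Good T := good_of hTa (by linarith)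
  refine ⟨T, ⟨hTa, by linarith, ?_⟩, hle⟩
  obtain ⟨μ, hμ⟩ := exists_min hTg (H T hTg).continuous
  refine ⟨μ, le_of_forall_pos_le_add fun ε hε => ?_⟩
  have hC := CC_pos 200
  obtain ⟨δ, hδ⟩ : ∃ δ, δ = min (1 / 54) (ε / (54 * CC 200)) := ⟨_, rfl⟩
  have hδ0 : 0 < δ := by rw [hδ]; exact lt_min (by norm_num) (by positivity)
  have hδ1 : δ ≤ 1 / 54 := by rw [hδ]; exact min_le_left _ _
  have hδ2 : 54 * δ * CC 200 ≤ ε := by
    have : δ ≤ ε / (54 * CC 200) := by rw [hδ]; exact min_le_right _ _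
    rw [le_div_iff₀ (by positivity)] at this
    linarith
  obtain ⟨n, hn⟩ := (hTa.summ.hasSum.tendsto_sum_nat.eventually
    (lt_mem_nhds (show nrm T - δ < nrm T by linarith))).exists
  obtain ⟨t, ht, h⟩ := hsum δ hδ0 (range n)
  obtain ⟨h1, h2, ν, h3⟩ := hc ht
  have hu : Adm (T - t) := ⟨fun j => sub_nonneg.mpr (hle t ht j), hTa.summ.sub h1.summ⟩
  have hun : nrm (T - t) = nrm T - nrm t := hTa.summ.tsum_sub h1.summ
  have hu0 := hu.nrm_nonneg
  have h4 := pr_cont (good_of h1 h2) hu (by linarith) ν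
  rw [add_sub_cancel] at h4
  have h5 : 27 * nrm (T - t) * CC ν ≤ 54 * δ * CC 200 := by
    have := CC_pos ν
    have h6 := CC_mono (SS_bound h1 h2 h3).2
    have h7 : 27 * nrm (T - t) ≤ 54 * δ := by linarith
    gcongr
  have h8 := hμ ν
  unfold rho at *
  linarith

lemma exists_nondiff : ∃ t, Good t ∧ ¬ Differentiable ℝ (pr t) := by
  by_contra hc
  push Not at hc
  have h00 : Adm (0 : ℕ → ℝ) := ⟨fun _ => le_rfl, summable_zero⟩
  have hn0 : nrm (0 : ℕ → ℝ) = 0 := by simp [nrm]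
  have h0 : (0 : ℕ → ℝ) ∈ SS := by
    refine ⟨h00, by rw [hn0]; norm_num, 0, ?_⟩
    have h1 := pr_le (PS_mem (good_of h00 (by rw [hn0]; norm_num)) 0)
    rw [hn0] at h1 ⊢
    have h2 := Real.exp_one_lt_d9
    simp only [mul_zero, zero_add] at h1
    linarith
  obtain ⟨t, -, ht⟩ := zorn_le_nonempty₀ SS (chain_bound hc) 0 h0
  obtain ⟨h1, h2, ν, h3⟩ := ht.prop
  have hg := good_of h1 h2
  obtain ⟨μ, hμ⟩ := exists_min hg (hc t hg).continuous
  have hρ : 0 < rho := by unfold rho; positivity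
  have hd : HasDerivAt (fun μ => pr t μ - rho * μ) 0 μ := by
    have hd' : DifferentiableAt ℝ (fun μ => pr t μ - rho * μ) μ :=
      (hc t hg μ).sub (by fun_prop)
    have hm : IsLocalMin (fun μ => pr t μ - rho * μ) μ := Eventually.of_forall hμ
    have := hd'.hasDerivAt
    rwa [hm.deriv_eq_zero] at this
  have hs := (hasDerivAt_iff_tendsto_slope_zero.mp hd).eventually
    (gt_mem_nhds (show (0 : ℝ) < rho / 2 by linarith))
  have hs' := hs.filter_mono (nhdsGT_le_nhdsNE (0 : ℝ))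
  obtain ⟨hh, hh1, hh2⟩ := (hs'.and (Ioc_mem_nhdsGT (zero_lt_one' ℝ))).exists
  simp only [smul_eq_mul] at hh1
  rw [inv_mul_lt_iff₀ hh2.1] at hh1
  obtain ⟨τ, hτ0, hτ1, j, hj⟩ := step hg hρ hh2.1 hh2.2 (μ := μ) (by linarith)
  have hsg : HasSum (Pi.single j τ : ℕ → ℝ) τ := by
    have := hasSum_single (f := (Pi.single j τ : ℕ → ℝ)) j (fun i hi => Pi.single_eq_of_ne hi _)
    simpa using this
  have hs0 : ∀ i, 0 ≤ (Pi.single j τ : ℕ → ℝ) i := fun i => by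
    rcases eq_or_ne i j with rfl | hi
    · simpa using hτ0.le
    · simp [Pi.single_eq_of_ne hi]
  have hn : nrm (t + Pi.single j τ) = nrm t + τ := (h1.summ.hasSum.add hsg).tsum_eq
  have hmem : t + Pi.single j τ ∈ SS := by
    refine ⟨⟨fun i => add_nonneg (h1.nonneg i) (hs0 i), h1.summ.add hsg.summable⟩, ?_, μ, ?_⟩
    · rw [hn]; linarith [(SS_bound h1 h2 h3).1]
    · rw [hn]
      have := hμ ν
      unfold rho at *
      linarith
  have h4 := ht.le_of_ge hmem (fun i => le_add_of_nonneg_right (hs0 i)) j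
  simp only [Pi.add_apply, Pi.single_eq_same] at h4
  linarith

lemma Xi_ne_top {t : ℕ → ℝ} (h : Good t) (μ : ℝ) {L : ℝ} (hL : 0 ≤ L) :
    Xi (Lam L) (fun _ => μ) (Wt t) ≠ ⊤ :=
  ne_top_of_le_ne_top ENNReal.ofReal_ne_top (Xi_apriori h μ hL)

lemma tendsto_pr {t : ℕ → ℝ} (h : Good t) (μ : ℝ) :
    Tendsto (fun L : ℝ => Real.log (Xi (Lam L) (fun _ => μ) (Wt t)).toReal / L ^ 3) atTop
      (𝓝 (pr t μ)) := by
  have hpos : ∀ L : ℝ, 0 ≤ L → 0 < (Xi (Lam L) (fun _ => μ) (Wt t)).toReal := fun L hL =>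
    ENNReal.toReal_pos (lt_of_lt_of_le zero_lt_one (one_le_Xi _ _ _)).ne' (Xi_ne_top h μ hL)
  refine tendsto_order.mpr ⟨fun a ha => ?_, fun a ha => ?_⟩
  · obtain ⟨b, hb1, hb2⟩ := exists_between ha
    filter_upwards [pr_limit_lower h hb2, eventually_gt_atTop 0] with L hL hL0
    rw [ENNReal.ofReal_le_iff_le_toReal (Xi_ne_top h μ hL0.le),
      ← Real.le_log_iff_exp_le (hpos L hL0.le)] at hL
    rw [lt_div_iff₀ (by positivity)]
    refine lt_of_lt_of_le ?_ hL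
    gcongr
  · obtain ⟨b, hb1, hb2⟩ := exists_between ha
    filter_upwards [pr_lt h hb1, eventually_gt_atTop 0] with L hL hL0
    have h1 := ENNReal.toReal_le_of_le_ofReal (Real.exp_pos _).le hL
    rw [← Real.log_le_iff_le_exp (hpos L hL0.le)] at h1
    rw [div_lt_iff₀ (by positivity)]
    refine lt_of_le_of_lt h1 ?_
    gcongr

end Vale.Agent.P171
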